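import Vale.Agent.P080.Defs

namespace Vale.Agent.P080

open Filter Topology Metric Set

variable {F : Type*} [NormedAddCommGroup F] [InnerProductSpace ℝ F] [CompleteSpace F]

open scoped RealInnerProductSpace

omit [CompleteSpace F] in
/-- second derivative along a line -/
lemma fderiv2_eq_deriv2 {φ : F → ℝ} {z : F} (v : F) (hφ : ContDiffAt ℝ 2 φ z) :
    fderiv ℝ (fderiv ℝ φ) z v v = deriv (deriv (fun t : ℝ => φ (z + t • v))) 0 := by
  have hline : ∀ t : ℝ, HasDerivAt (fun t : ℝ => z + t • v) v t := by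
    intro t
    simpa using ((hasDerivAt_id t).smul_const v).const_add z
  have hcont : Tendsto (fun t : ℝ => z + t • v) (𝓝 0) (𝓝 z) := by
    have := (hline 0).continuousAt.tendsto
    simpa using this
  have hev : ∀ᶠ y in 𝓝 z, DifferentiableAt ℝ φ y := by
    have h1 : ∀ᶠ y in 𝓝 z, ContDiffAt ℝ 2 φ y := hφ.eventually (by simp)
    filter_upwards [h1] with y hy
    exact hy.differentiableAt (by norm_num)
  have hev' : ∀ᶠ t in 𝓝 (0:ℝ), DifferentiableAt ℝ φ (z + t • v) := hcont.eventually hev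
  have h1 : deriv (fun t : ℝ => φ (z + t • v)) =ᶠ[𝓝 0] fun t => fderiv ℝ φ (z + t • v) v := by
    filter_upwards [hev'] with t ht
    exact (ht.hasFDerivAt.comp_hasDerivAt t (hline t)).deriv
  rw [h1.deriv_eq]
  have h2 : DifferentiableAt ℝ (fderiv ℝ φ) z := by
    have : ContDiffAt ℝ 1 (fderiv ℝ φ) z := hφ.fderiv_right (by norm_num)
    exact this.differentiableAt (by norm_num)
  have h2' : HasFDerivAt (fderiv ℝ φ) (fderiv ℝ (fderiv ℝ φ) z) (z + (0:ℝ) • v) := by
    simpa using h2.hasFDerivAt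
  have h3 : HasDerivAt (fun t : ℝ => fderiv ℝ φ (z + t • v)) (fderiv ℝ (fderiv ℝ φ) z v) 0 :=
    h2'.comp_hasDerivAt 0 (hline 0)
  have h4 : HasDerivAt (fun t : ℝ => fderiv ℝ φ (z + t • v) v) (fderiv ℝ (fderiv ℝ φ) z v v) 0 := by
    have := h3.clm_apply (hasDerivAt_const (0:ℝ) v)
    simpa using this
  exact h4.deriv.symm

omit [CompleteSpace F] in
lemma hasFDerivAt_norm_sub {x0 z : F} (hz : z ≠ x0) :
    HasFDerivAt (fun x : F => ‖x - x0‖) ((1 / ‖z - x0‖) • innerSL ℝ (z - x0)) z := by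
  have hne : ‖z - x0‖ ≠ 0 := by
    simpa [sub_eq_zero] using hz
  have h1 : HasFDerivAt (fun x : F => x - x0) (ContinuousLinearMap.id ℝ F) z :=
    (hasFDerivAt_id z).sub_const x0
  have h2 := h1.norm_sq
  have h3 := h2.sqrt (by positivity)
  have h4 : (fun x : F => √(‖x - x0‖ ^ 2)) = fun x : F => ‖x - x0‖ := by
    funext x
    exact Real.sqrt_sq (norm_nonneg _)
  rw [h4] at h3
  convert h3 using 1
  rw [Real.sqrt_sq (norm_nonneg _)]
  ext y
  simp
  field_simp

omit [CompleteSpace F] in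
lemma cone_contDiffAt {x0 z : F} (hz : z ≠ x0) (a s γ : ℝ) :
    ContDiffAt ℝ 2 (fun x : F => a - s * ‖x - x0‖ + γ * ‖x - x0‖ ^ 2) z := by
  have h1 : ContDiffAt ℝ 2 (fun x : F => x - x0) z := contDiffAt_id.sub contDiffAt_const
  have h2 : ContDiffAt ℝ 2 (fun x : F => ‖x - x0‖) z := h1.norm ℝ (sub_ne_zero.mpr hz)
  exact (contDiffAt_const.sub (contDiffAt_const.mul h2)).add (contDiffAt_const.mul (h2.pow 2))

lemma cone_gradient {x0 z : F} (hz : z ≠ x0) (a s γ : ℝ) :
    gradient (fun x : F => a - s * ‖x - x0‖ + γ * ‖x - x0‖ ^ 2) z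
      = (2 * γ - s / ‖z - x0‖) • (z - x0) := by
  have hne : ‖z - x0‖ ≠ 0 := by
    simpa [sub_eq_zero] using hz
  have h1 := hasFDerivAt_norm_sub hz
  have h3 : HasFDerivAt (fun x : F => a - s * ‖x - x0‖ + γ * ‖x - x0‖ ^ 2) _ z :=
    ((h1.const_mul s).const_sub a).add ((h1.pow 2).const_mul γ)
  apply HasGradientAt.gradient
  rw [hasGradientAt_iff_hasFDerivAt]
  refine h3.congr_fderiv ?_
  ext y
  simp
  field_simp
  ring

lemma cone_infLaplacian {x0 z : F} (hz : z ≠ x0) (a s γ : ℝ) :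
    infLaplacian (fun x : F => a - s * ‖x - x0‖ + γ * ‖x - x0‖ ^ 2) z
      = 2 * γ * (2 * γ * ‖z - x0‖ - s) ^ 2 := by
  have hne : ‖z - x0‖ ≠ 0 := by
    simpa [sub_eq_zero] using hz
  have hpos : 0 < ‖z - x0‖ := lt_of_le_of_ne (norm_nonneg _) (Ne.symm hne)
  unfold infLaplacian
  rw [fderiv2_eq_deriv2 _ (cone_contDiffAt hz a s γ), cone_gradient hz]
  set c : ℝ := 2 * γ - s / ‖z - x0‖ with hc
  set ρ : ℝ := ‖z - x0‖ with hρ
  -- near t = 0 the function is a polynomial
  have hev : ∀ᶠ t in 𝓝 (0:ℝ), 0 < 1 + t * c := by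
    have : Tendsto (fun t : ℝ => 1 + t * c) (𝓝 0) (𝓝 (1 + 0 * c)) :=
      (tendsto_const_nhds.add (tendsto_id.mul_const c))
    have h1 : (0:ℝ) < 1 + 0 * c := by norm_num
    exact this.eventually (lt_mem_nhds h1)
  have h1 : (fun t : ℝ => a - s * ‖z + t • c • (z - x0) - x0‖ + γ * ‖z + t • c • (z - x0) - x0‖ ^ 2)
      =ᶠ[𝓝 0] fun t : ℝ => a - s * ((1 + t * c) * ρ) + γ * ((1 + t * c) * ρ) ^ 2 := by
    filter_upwards [hev] with t ht
    have : z + t • c • (z - x0) - x0 = (1 + t * c) • (z - x0) := by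
      rw [add_smul, one_smul, mul_smul]; abel
    rw [this, norm_smul, Real.norm_eq_abs, abs_of_pos ht]
  have h2 : deriv (fun t : ℝ => a - s * ‖z + t • c • (z - x0) - x0‖ + γ * ‖z + t • c • (z - x0) - x0‖ ^ 2)
      =ᶠ[𝓝 0] deriv (fun t : ℝ => a - s * ((1 + t * c) * ρ) + γ * ((1 + t * c) * ρ) ^ 2) := h1.deriv
  rw [h2.deriv_eq]
  have h3 : ∀ t : ℝ, HasDerivAt (fun t : ℝ => a - s * ((1 + t * c) * ρ) + γ * ((1 + t * c) * ρ) ^ 2)
      (- s * c * ρ + 2 * γ * c * ρ ^ 2 * (1 + t * c)) t := by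
    intro t
    have e1 : HasDerivAt (fun t : ℝ => (1 + t * c) * ρ) (c * ρ) t := by
      simpa using (((hasDerivAt_id t).mul_const c).const_add 1).mul_const ρ
    have e2 : HasDerivAt (fun t : ℝ => a - s * ((1 + t * c) * ρ) + γ * ((1 + t * c) * ρ) ^ 2) _ t :=
      ((e1.const_mul s).const_sub a).add ((e1.pow 2).const_mul γ)
    refine e2.congr_deriv ?_
    simp only [Nat.cast_ofNat, Nat.add_one_sub_one, pow_one]
    ring
  have h4 : deriv (fun t : ℝ => a - s * ((1 + t * c) * ρ) + γ * ((1 + t * c) * ρ) ^ 2)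
      = fun t => - s * c * ρ + 2 * γ * c * ρ ^ 2 * (1 + t * c) := by
    funext t
    exact (h3 t).deriv
  rw [h4]
  have h5 : HasDerivAt (fun t : ℝ => - s * c * ρ + 2 * γ * c * ρ ^ 2 * (1 + t * c))
      (2 * γ * c * ρ ^ 2 * c) 0 := by
    simpa using ((((hasDerivAt_id (0:ℝ)).mul_const c).const_add 1).const_mul (2 * γ * c * ρ ^ 2)).const_add (- s * c * ρ)
  rw [h5.deriv, hc]
  field_simp

section FinDim

variable {F : Type*} [NormedAddCommGroup F] [InnerProductSpace ℝ F] [FiniteDimensional ℝ F]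

/-- Comparison with cones from below for viscosity supersolutions, on a ball centred at the
vertex of the cone. -/
lemma cone_comparison_below {u : F → ℝ} {Ω : Set F} (hcont : ContinuousOn u Ω)
    (hsup : IsInfSuperharmonic u Ω) {x0 : F} {r s : ℝ} (hr : 0 < r)
    (hball : closedBall x0 r ⊆ Ω) (hbd : ∀ y ∈ sphere x0 r, u x0 - s * r ≤ u y) :
    ∀ x ∈ closedBall x0 r, u x0 - s * ‖x - x0‖ ≤ u x := by
  by_contra hcon
  push Not at hcon
  obtain ⟨xh, hxh, hlt⟩ := hcon
  set δ : ℝ := u x0 - s * ‖xh - x0‖ - u xh with hδ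
  have hδpos : 0 < δ := by rw [hδ]; linarith
  obtain ⟨γ, hγ0, hγ1, hγ2⟩ : ∃ γ : ℝ, 0 < γ ∧ γ * r ^ 2 < δ ∧ (0 < s → 2 * γ * r < s) := by
    by_cases hs : 0 < s
    · refine ⟨min (δ / (2 * r ^ 2)) (s / (4 * r)), by positivity, ?_, fun _ => ?_⟩
      · calc min (δ / (2 * r ^ 2)) (s / (4 * r)) * r ^ 2 ≤ δ / (2 * r ^ 2) * r ^ 2 := by
              gcongr; exact min_le_left _ _
          _ = δ / 2 := by field_simp
          _ < δ := by linarith
      · calc 2 * min (δ / (2 * r ^ 2)) (s / (4 * r)) * r ≤ 2 * (s / (4 * r)) * r := by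
              gcongr; exact min_le_right _ _
          _ = s / 2 := by field_simp; ring
          _ < s := by linarith
    · refine ⟨δ / (2 * r ^ 2), by positivity, ?_, fun h => absurd h hs⟩
      calc δ / (2 * r ^ 2) * r ^ 2 = δ / 2 := by field_simp
        _ < δ := by linarith
  set G : F → ℝ := fun x => u x0 - s * ‖x - x0‖ + γ * ‖x - x0‖ ^ 2 with hG
  have hGcont : Continuous G := by
    rw [hG]; fun_prop
  have hcomp : IsCompact (closedBall x0 r) := isCompact_closedBall x0 r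
  have hne : (closedBall x0 r).Nonempty := ⟨xh, hxh⟩
  have hc2 : ContinuousOn (fun x => u x - G x) (closedBall x0 r) :=
    (hcont.mono hball).sub hGcont.continuousOn
  obtain ⟨xs, hxs, hmin⟩ := hcomp.exists_isMinOn hne hc2
  have hval : u xs - G xs ≤ -δ := by
    have h1 : u xs - G xs ≤ u xh - G xh := hmin hxh
    have h2 : u xh - G xh = -δ - γ * ‖xh - x0‖ ^ 2 := by
      simp only [hG, hδ]; ring
    have h3 : 0 ≤ γ * ‖xh - x0‖ ^ 2 := by positivity
    linarith
  have hxs0 : xs ≠ x0 := by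
    intro h
    rw [h] at hval
    simp [hG] at hval
    linarith
  have hxsr : ‖xs - x0‖ < r := by
    have hle : ‖xs - x0‖ ≤ r := by simpa [dist_eq_norm] using hxs
    rcases lt_or_eq_of_le hle with h | h
    · exact h
    · exfalso
      have hsph : xs ∈ sphere x0 r := by simpa [dist_eq_norm] using h
      have h1 := hbd xs hsph
      have h2 : u xs - G xs = u xs - u x0 + s * r - γ * r ^ 2 := by
        simp only [hG, h]; ring
      linarith
  have hloc : IsLocalMin (fun x => u x - G x) xs := by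
    have hmem : closedBall x0 r ∈ 𝓝 xs := by
      apply mem_of_superset (isOpen_ball.mem_nhds (show xs ∈ ball x0 r by
        simpa [dist_eq_norm] using hxsr)) ball_subset_closedBall
    exact hmin.isLocalMin hmem
  have hlap := hsup G xs (hball hxs) (cone_contDiffAt hxs0 _ _ _) hloc
  rw [hG, cone_infLaplacian hxs0] at hlap
  have hρ : 0 < ‖xs - x0‖ := norm_pos_iff.mpr (sub_ne_zero.mpr hxs0)
  have hne2 : 2 * γ * ‖xs - x0‖ - s ≠ 0 := by
    by_cases hs : 0 < s
    · have h1 := hγ2 hs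
      have h2 : 2 * γ * ‖xs - x0‖ < 2 * γ * r := by gcongr
      intro h; linarith
    · have h2 : 0 < 2 * γ * ‖xs - x0‖ := by positivity
      intro h; linarith
  have : 0 < 2 * γ * (2 * γ * ‖xs - x0‖ - s) ^ 2 := by positivity
  linarith

/-- A supersolution cannot have a strict minimum at the centre of a ball relative to the sphere. -/
lemma exists_sphere_le [Nontrivial F] {u : F → ℝ} {Ω : Set F} (hcont : ContinuousOn u Ω)
    (hsup : IsInfSuperharmonic u Ω) {x0 : F} {r : ℝ} (hr : 0 < r)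
    (hball : closedBall x0 r ⊆ Ω) : ∃ y ∈ sphere x0 r, u y ≤ u x0 := by
  by_contra hcon
  push Not at hcon
  have hsc : IsCompact (sphere x0 r) := isCompact_sphere x0 r
  have hsne : (sphere x0 r).Nonempty := (NormedSpace.sphere_nonempty).mpr hr.le
  have hsub : sphere x0 r ⊆ Ω := sphere_subset_closedBall.trans hball
  obtain ⟨ym, hym, hmin⟩ := hsc.exists_isMinOn hsne (hcont.mono hsub)
  set κ : ℝ := (u ym - u x0) / r with hκ
  have hκpos : 0 < κ := div_pos (by linarith [hcon ym hym]) hr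
  have hcone := cone_comparison_below hcont hsup (s := -κ) hr hball (by
    intro y hy
    have h1 : u ym ≤ u y := hmin hy
    have h2 : κ * r = u ym - u x0 := by rw [hκ]; field_simp
    linarith)
  obtain ⟨v, hv⟩ : (sphere x0 (r / 4)).Nonempty := (NormedSpace.sphere_nonempty).mpr (by positivity)
  have hva : ‖v - x0‖ = r / 4 := by simpa [dist_eq_norm] using hv
  have hsubball : closedBall v (r / 2) ⊆ closedBall x0 r := by
    apply closedBall_subset_closedBall'
    rw [dist_eq_norm, hva]; linarith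
  have hvmem : v ∈ closedBall x0 r := by
    rw [mem_closedBall, dist_eq_norm, hva]; linarith
  have huv : u x0 + κ * (r / 4) ≤ u v := by
    have := hcone v hvmem
    rw [hva] at this
    linarith
  have hcone2 := cone_comparison_below hcont hsup (x0 := v) (r := r / 2)
    (s := (u v - u x0) / (r / 2)) (by positivity) (hsubball.trans hball) (by
    intro y hy
    have hy' : y ∈ closedBall x0 r := hsubball (sphere_subset_closedBall hy)
    have h1 := hcone y hy'
    have h2 : 0 ≤ κ * ‖y - x0‖ := by positivity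
    have h3 : (u v - u x0) / (r / 2) * (r / 2) = u v - u x0 := by field_simp
    linarith)
  have hx0mem : x0 ∈ closedBall v (r / 2) := by
    rw [mem_closedBall, dist_eq_norm, norm_sub_rev, hva]; linarith
  have h4 := hcone2 x0 hx0mem
  rw [norm_sub_rev, hva] at h4
  have h5 : (u v - u x0) / (r / 2) * (r / 4) = (u v - u x0) / 2 := by field_simp; ring
  have h6 : 0 < κ * (r / 4) := by positivity
  linarith

end FinDim

end Vale.Agent.P080
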