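import Vale.Agent.P080.Cone

/-! Convex infinity-superharmonic functions: subgradients, descent rays, gradient estimates. -/

namespace Vale.Agent.P080

open Filter Topology Metric Set

variable {F : Type*} [NormedAddCommGroup F] [InnerProductSpace ℝ F] [FiniteDimensional ℝ F]

open scoped RealInnerProductSpace

omit [FiniteDimensional ℝ F] in
lemma norm_add_le_quadratic {a h : F} (ha : a ≠ 0) :
    ‖a + h‖ ≤ ‖a‖ + (2 * ⟪a, h⟫ + ‖h‖ ^ 2) / (2 * ‖a‖) := by
  have hA : 0 < ‖a‖ := norm_pos_iff.mpr ha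
  set A := ‖a‖ with hAdef
  set B := 2 * ⟪a, h⟫ + ‖h‖ ^ 2 with hB
  have h1 : ‖a + h‖ ^ 2 = A ^ 2 + B := by
    rw [norm_add_sq_real, hB]; ring
  have h2 : 0 ≤ A ^ 2 + B := by rw [← h1]; positivity
  have h3 : 0 ≤ A + B / (2 * A) := by
    have : A + B / (2 * A) = (A ^ 2 + (A ^ 2 + B)) / (2 * A) := by field_simp; ring
    rw [this]; positivity
  have h4 : ‖a + h‖ ^ 2 ≤ (A + B / (2 * A)) ^ 2 := by
    rw [h1]
    have : (A + B / (2 * A)) ^ 2 = A ^ 2 + B + (B / (2 * A)) ^ 2 := by field_simp; ring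
    rw [this]
    have : 0 ≤ (B / (2 * A)) ^ 2 := by positivity
    linarith
  exact (pow_le_pow_iff_left₀ (norm_nonneg _) h3 (by norm_num)).mp h4

lemma exists_subgradient_descent [Nontrivial F] {u : F → ℝ} {Ω : Set F}
    (hconv : ConvexOn ℝ Ω u) (hcont : ContinuousOn u Ω) (hsup : IsInfSuperharmonic u Ω)
    {x0 : F} {r : ℝ} (hr : 0 < r) (hball : closedBall x0 r ⊆ Ω) :
    ∃ p : F, (∀ z ∈ Ω, u x0 + ⟪p, z - x0⟫ ≤ u z) ∧
      ∃ y ∈ Ω, ‖y - x0‖ = r ∧ u y = u x0 - r * ‖p‖ ∧ ‖p‖ • (y - x0) = -(r • p) := by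
  have hsc : IsCompact (sphere x0 r) := isCompact_sphere x0 r
  have hsne : (sphere x0 r).Nonempty := (NormedSpace.sphere_nonempty).mpr hr.le
  have hsub : sphere x0 r ⊆ Ω := sphere_subset_closedBall.trans hball
  obtain ⟨y, hy, hmin⟩ := hsc.exists_isMinOn hsne (hcont.mono hsub)
  have hyr : ‖y - x0‖ = r := by simpa [dist_eq_norm] using hy
  have hx0Ω : x0 ∈ Ω := hball (mem_closedBall_self hr.le)
  have hyΩ : y ∈ Ω := hsub hy
  set σ : ℝ := (u x0 - u y) / r with hσ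
  have hσr : σ * r = u x0 - u y := by rw [hσ]; field_simp
  have hσ0 : 0 ≤ σ := by
    obtain ⟨y', hy', hle⟩ := exists_sphere_le hcont hsup hr hball
    have h1 : u y ≤ u y' := hmin hy'
    exact div_nonneg (by linarith) hr.le
  have hcone := cone_comparison_below hcont hsup (s := σ) hr hball (by
    intro y' hy'
    have h1 : u y ≤ u y' := hmin hy'
    linarith)
  set w : F := y - x0 with hw
  have hwne : w ≠ 0 := by
    intro h
    rw [h, norm_zero] at hyr
    linarith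
  set p : F := -((σ / r) • w) with hp
  have hpn : ‖p‖ = σ := by
    rw [hp, norm_neg, norm_smul, hyr, Real.norm_eq_abs, abs_of_nonneg (by positivity)]
    field_simp
  set ym : F := x0 + (1 / 2 : ℝ) • w with hym
  have hymball : ym ∈ closedBall x0 r := by
    rw [mem_closedBall, dist_eq_norm, hym, add_sub_cancel_left, norm_smul, hyr]
    norm_num
    linarith
  have hymΩ : ym ∈ Ω := hball hymball
  have hum : u ym = u x0 - σ * r / 2 := by
    apply le_antisymm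
    · have h1 := hconv.2 hx0Ω hyΩ (show (0:ℝ) ≤ 1 / 2 by norm_num) (show (0:ℝ) ≤ 1 / 2 by norm_num)
        (by norm_num)
      have h2 : (1 / 2 : ℝ) • x0 + (1 / 2 : ℝ) • y = ym := by
        rw [hym, hw]; module
      rw [h2] at h1
      simp only [smul_eq_mul] at h1
      linarith
    · have h1 := hcone ym hymball
      have h2 : ‖ym - x0‖ = r / 2 := by
        rw [hym, add_sub_cancel_left, norm_smul, hyr]; norm_num; ring
      rw [h2] at h1
      linarith
  refine ⟨p, ?_, y, hyΩ, hyr, ?_, ?_⟩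
  · intro z hz
    set h : F := z - ym with hh
    have hstep : ∀ t : ℝ, 0 < t → t ≤ 1 → t * ‖h‖ ≤ r / 2 →
        u ym - (σ / r) * ⟪w, h⟫ - (σ * ‖h‖ ^ 2 / r) * t ≤ u z := by
      intro t ht0 ht1 htr
      have e1 : (1 - t) • ym + t • z = ym + t • h := by
        rw [hh, smul_sub, sub_smul, one_smul]; abel
      have c1 := hconv.2 hymΩ hz (show (0:ℝ) ≤ 1 - t by linarith) ht0.le (by ring)
      rw [e1] at c1
      simp only [smul_eq_mul] at c1
      have e2 : ym + t • h - x0 = (1 / 2 : ℝ) • w + t • h := by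
        rw [hym]; abel
      have hane : (1 / 2 : ℝ) • w ≠ 0 := smul_ne_zero (by norm_num) hwne
      have han : ‖(1 / 2 : ℝ) • w‖ = r / 2 := by
        rw [norm_smul, hyr]; norm_num; ring
      have hmem : ym + t • h ∈ closedBall x0 r := by
        rw [mem_closedBall, dist_eq_norm, e2]
        calc ‖(1 / 2 : ℝ) • w + t • h‖ ≤ ‖(1 / 2 : ℝ) • w‖ + ‖t • h‖ := norm_add_le _ _
          _ = r / 2 + t * ‖h‖ := by rw [han, norm_smul, Real.norm_eq_abs, abs_of_pos ht0]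
          _ ≤ r := by linarith
      have c2 := hcone _ hmem
      rw [e2] at c2
      have c3 := norm_add_le_quadratic (a := (1 / 2 : ℝ) • w) (h := t • h) hane
      rw [han, inner_smul_left, inner_smul_right, norm_smul, Real.norm_eq_abs, abs_of_pos ht0] at c3
      simp only [conj_trivial] at c3
      have c4 : r / 2 + (2 * (1 / 2 * (t * ⟪w, h⟫)) + (t * ‖h‖) ^ 2) / (2 * (r / 2))
          = r / 2 + t * (⟪w, h⟫ + t * ‖h‖ ^ 2) / r := by
        field_simp
      rw [c4] at c3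
      have c5 : σ * ‖(1 / 2 : ℝ) • w + t • h‖ ≤ σ * (r / 2 + t * (⟪w, h⟫ + t * ‖h‖ ^ 2) / r) :=
        mul_le_mul_of_nonneg_left c3 hσ0
      have c6 : t * (u ym - (σ / r) * ⟪w, h⟫ - (σ * ‖h‖ ^ 2 / r) * t) ≤ t * u z := by
        have : t * (u ym - (σ / r) * ⟪w, h⟫ - (σ * ‖h‖ ^ 2 / r) * t)
            = t * u ym - σ * (t * (⟪w, h⟫ + t * ‖h‖ ^ 2) / r) := by
          field_simp
          ring
        rw [this]
        have e3 : σ * (r / 2 + t * (⟪w, h⟫ + t * ‖h‖ ^ 2) / r)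
            = σ * r / 2 + σ * (t * (⟪w, h⟫ + t * ‖h‖ ^ 2) / r) := by ring
        rw [e3] at c5
        linarith
      exact le_of_mul_le_mul_left c6 ht0
    have hlim : u ym - (σ / r) * ⟪w, h⟫ ≤ u z := by
      apply le_of_forall_pos_le_add
      intro ε hε
      set K : ℝ := σ * ‖h‖ ^ 2 / r with hK
      have hK0 : 0 ≤ K := by positivity
      set t : ℝ := min 1 (min (r / (2 * (‖h‖ + 1))) (ε / (K + 1))) with ht
      have ht0 : 0 < t := by
        rw [ht]; positivity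
      have ht1 : t ≤ 1 := min_le_left _ _
      have ht2 : t ≤ r / (2 * (‖h‖ + 1)) := (min_le_right _ _).trans (min_le_left _ _)
      have ht3 : t ≤ ε / (K + 1) := (min_le_right _ _).trans (min_le_right _ _)
      have h1 : t * ‖h‖ ≤ r / 2 := by
        calc t * ‖h‖ ≤ r / (2 * (‖h‖ + 1)) * ‖h‖ := by gcongr
          _ = r / 2 * (‖h‖ / (‖h‖ + 1)) := by field_simp
          _ ≤ r / 2 * 1 := by
              gcongr
              rw [div_le_one (by positivity)]; linarith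
          _ = r / 2 := by ring
      have h2 : K * t ≤ ε := by
        calc K * t ≤ K * (ε / (K + 1)) := by gcongr
          _ = ε * (K / (K + 1)) := by field_simp
          _ ≤ ε * 1 := by
              gcongr
              rw [div_le_one (by positivity)]; linarith
          _ = ε := by ring
      have := hstep t ht0 ht1 h1
      linarith
    have e4 : z - x0 = h + (1 / 2 : ℝ) • w := by
      rw [hh, hym]; abel
    have e5 : ⟪p, z - x0⟫ = -(σ / r) * ⟪w, h⟫ - σ * r / 2 := by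
      rw [e4, hp, inner_neg_left, inner_smul_left, inner_add_right, inner_smul_right,
        real_inner_self_eq_norm_sq, hyr]
      simp only [conj_trivial]
      field_simp
      ring
    rw [e5]
    linarith
  · rw [hpn]; linarith
  · rw [hpn, hp, smul_neg, neg_neg, smul_smul]
    congr 1
    field_simp

section General

variable {F : Type*} [NormedAddCommGroup F] [InnerProductSpace ℝ F]

/-- `p` is a subgradient of `u` at `x` relative to `Ω`, and `u` decreases at the exact rate `‖p‖`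
along a segment of length `r` issued from `x` in the direction `-p`. -/
def DescentData (u : F → ℝ) (Ω : Set F) (r : ℝ) (x p : F) : Prop :=
  (∀ z ∈ Ω, u x + ⟪p, z - x⟫ ≤ u z) ∧
    ∃ y ∈ Ω, ‖y - x‖ = r ∧ u y = u x - r * ‖p‖ ∧ ‖p‖ • (y - x) = -(r • p)

lemma DescentData.pair_estimate {u : F → ℝ} {Ω : Set F} {r : ℝ} {x0 x1 p0 p1 : F}
    (hx1 : x1 ∈ Ω) (h0 : DescentData u Ω r x0 p0)
    (h1 : ∀ z ∈ Ω, u x1 + ⟪p1, z - x1⟫ ≤ u z) :
    r * (‖p0‖ ^ 2 - ⟪p0, p1⟫) ≤ ‖p0‖ * ⟪p0 - p1, x0 - x1⟫ := by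
  obtain ⟨hs0, y0, hy0, -, e0, d0⟩ := h0
  have a1 := h1 y0 hy0
  have a2 := hs0 x1 hx1
  have b1 : ⟪p1, y0 - x1⟫ = ⟪p1, y0 - x0⟫ + ⟪p1, x0 - x1⟫ := by
    rw [← inner_add_right]; congr 1; abel
  have b2 : ⟪p0 - p1, x0 - x1⟫ = -⟪p0, x1 - x0⟫ - ⟪p1, x0 - x1⟫ := by
    rw [inner_sub_left, ← inner_neg_right]; congr 2; abel
  have b3 : r * ‖p0‖ + ⟪p1, y0 - x0⟫ ≤ ⟪p0 - p1, x0 - x1⟫ := by
    rw [b2]; linarith
  have b4 : ‖p0‖ * ⟪p1, y0 - x0⟫ = -(r * ⟪p0, p1⟫) := by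
    rw [← inner_smul_right, d0, inner_neg_right, inner_smul_right, real_inner_comm]
  have b5 := mul_le_mul_of_nonneg_left b3 (norm_nonneg p0)
  nlinarith

lemma DescentData.pair_lipschitz {u : F → ℝ} {Ω : Set F} {r : ℝ} {x0 x1 p0 p1 : F}
    (hx0 : x0 ∈ Ω) (hx1 : x1 ∈ Ω) (h0 : DescentData u Ω r x0 p0) (h1 : DescentData u Ω r x1 p1) :
    r * ‖p0 - p1‖ ≤ (‖p0‖ + ‖p1‖) * ‖x0 - x1‖ := by
  have A := h0.pair_estimate hx1 h1.1
  have B := h1.pair_estimate hx0 h0.1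
  have e1 : ⟪p1 - p0, x1 - x0⟫ = ⟪p0 - p1, x0 - x1⟫ := by
    rw [← neg_sub p0 p1, ← neg_sub x0 x1, inner_neg_neg]
  rw [e1, real_inner_comm] at B
  have e2 : ‖p0 - p1‖ ^ 2 = ‖p0‖ ^ 2 - 2 * ⟪p0, p1⟫ + ‖p1‖ ^ 2 := norm_sub_sq_real p0 p1
  have C : r * ‖p0 - p1‖ ^ 2 ≤ (‖p0‖ + ‖p1‖) * ⟪p0 - p1, x0 - x1⟫ := by
    rw [e2]; nlinarith
  have D : ⟪p0 - p1, x0 - x1⟫ ≤ ‖p0 - p1‖ * ‖x0 - x1‖ := real_inner_le_norm _ _
  have E : r * ‖p0 - p1‖ ^ 2 ≤ (‖p0‖ + ‖p1‖) * (‖p0 - p1‖ * ‖x0 - x1‖) :=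
    C.trans (mul_le_mul_of_nonneg_left D (by positivity))
  rcases eq_or_lt_of_le (norm_nonneg (p0 - p1)) with h | h
  · rw [← h]; simp; positivity
  · have : ‖p0 - p1‖ * (r * ‖p0 - p1‖) ≤ ‖p0 - p1‖ * ((‖p0‖ + ‖p1‖) * ‖x0 - x1‖) := by
      nlinarith
    exact le_of_mul_le_mul_left this h

/-- local bounds deduced from the Lipschitz inequality -/
lemma DescentData.local_bounds {u : F → ℝ} {Ω : Set F} {R : ℝ} (hR : 0 < R) {x0 x p0 p : F}
    (hx0 : x0 ∈ Ω) (hx : x ∈ Ω) (h0 : DescentData u Ω R x0 p0) (h : DescentData u Ω R x p)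
    (hd : ‖x - x0‖ ≤ R / 2) :
    ‖p‖ ≤ 3 * ‖p0‖ ∧ ‖p - p0‖ ≤ 4 * ‖p0‖ / R * ‖x - x0‖ := by
  have L := h.pair_lipschitz hx hx0 h0
  have t1 : ‖p‖ ≤ ‖p0‖ + ‖p - p0‖ := by
    have := norm_add_le p0 (p - p0)
    simpa using this
  have t2 : (‖p‖ + ‖p0‖) * ‖x - x0‖ ≤ (‖p‖ + ‖p0‖) * (R / 2) :=
    mul_le_mul_of_nonneg_left hd (by positivity)
  have t3 : ‖p - p0‖ ≤ (‖p‖ + ‖p0‖) / 2 := by
    have : R * ‖p - p0‖ ≤ R * ((‖p‖ + ‖p0‖) / 2) := by nlinarith
    exact le_of_mul_le_mul_left this hR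
  have t4 : ‖p‖ ≤ 3 * ‖p0‖ := by linarith
  refine ⟨t4, ?_⟩
  have t5 : R * ‖p - p0‖ ≤ (4 * ‖p0‖) * ‖x - x0‖ :=
    L.trans (mul_le_mul_of_nonneg_right (by linarith) (norm_nonneg _))
  rw [div_mul_eq_mul_div, le_div_iff₀ hR]
  linarith

end General

section FinDim2

variable {F : Type*} [NormedAddCommGroup F] [InnerProductSpace ℝ F] [FiniteDimensional ℝ F]

lemma exists_descentData [Nontrivial F] {u : F → ℝ} {Ω : Set F}
    (hconv : ConvexOn ℝ Ω u) (hcont : ContinuousOn u Ω) (hsup : IsInfSuperharmonic u Ω)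
    {x0 : F} {r : ℝ} (hr : 0 < r) (hball : closedBall x0 r ⊆ Ω) :
    ∃ p : F, DescentData u Ω r x0 p :=
  exists_subgradient_descent hconv hcont hsup hr hball

omit [InnerProductSpace ℝ F] [FiniteDimensional ℝ F] in
lemma exists_radius {Ω : Set F} (hΩ : IsOpen Ω) {x0 : F} (hx0 : x0 ∈ Ω) :
    ∃ R : ℝ, 0 < R ∧ ∀ x ∈ closedBall x0 R, closedBall x R ⊆ Ω := by
  obtain ⟨ε, hε, hsub⟩ := Metric.isOpen_iff.mp hΩ x0 hx0
  refine ⟨ε / 4, by positivity, fun x hx => ?_⟩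
  refine Subset.trans ?_ hsub
  intro y hy
  rw [mem_closedBall] at hx hy
  rw [mem_ball]
  calc dist y x0 ≤ dist y x + dist x x0 := dist_triangle _ _ _
    _ ≤ ε / 4 + ε / 4 := add_le_add hy hx
    _ < ε := by linarith

/-- A convex infinity-superharmonic function is differentiable at every point. -/
lemma exists_hasGradientAt [Nontrivial F] {u : F → ℝ} {Ω : Set F} (hΩ : IsOpen Ω)
    (hconv : ConvexOn ℝ Ω u) (hcont : ContinuousOn u Ω) (hsup : IsInfSuperharmonic u Ω)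
    {x0 : F} (hx0 : x0 ∈ Ω) : ∃ p0 : F, HasGradientAt u p0 x0 := by
  obtain ⟨R, hR, hballs⟩ := exists_radius hΩ hx0
  have hsel : ∀ x ∈ closedBall x0 R, ∃ p : F, DescentData u Ω R x p := fun x hx =>
    exists_descentData hconv hcont hsup hR (hballs x hx)
  obtain ⟨p0, hp0⟩ := hsel x0 (mem_closedBall_self hR.le)
  refine ⟨p0, ?_⟩
  rw [hasGradientAt_iff_isLittleO]
  have hO : (fun x => u x - u x0 - ⟪p0, x - x0⟫) =O[𝓝 x0] fun x => ‖x - x0‖ ^ 2 := by
    apply Asymptotics.IsBigO.of_bound (4 * ‖p0‖ / R)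
    have hnear : ball x0 (R / 2) ∈ 𝓝 x0 := ball_mem_nhds x0 (by positivity)
    filter_upwards [hnear] with x hx
    have hxd : ‖x - x0‖ ≤ R / 2 := by
      rw [mem_ball, dist_eq_norm] at hx; exact hx.le
    have hxR : x ∈ closedBall x0 R := by
      rw [mem_closedBall, dist_eq_norm]; linarith
    have hxΩ : x ∈ Ω := hballs x hxR (mem_closedBall_self hR.le)
    obtain ⟨p, hp⟩ := hsel x hxR
    obtain ⟨-, hb⟩ := DescentData.local_bounds hR hx0 hxΩ hp0 hp hxd
    have l1 := hp0.1 x hxΩ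
    have l2 := hp.1 x0 hx0
    have l3 : ⟪p, x0 - x⟫ = -⟪p, x - x0⟫ := by
      rw [← inner_neg_right]; congr 1; abel
    have l4 : ⟪p - p0, x - x0⟫ ≤ ‖p - p0‖ * ‖x - x0‖ := real_inner_le_norm _ _
    have l5 : ⟪p - p0, x - x0⟫ = ⟪p, x - x0⟫ - ⟪p0, x - x0⟫ := inner_sub_left _ _ _
    have l6 : ‖p - p0‖ * ‖x - x0‖ ≤ 4 * ‖p0‖ / R * ‖x - x0‖ * ‖x - x0‖ :=
      mul_le_mul_of_nonneg_right hb (norm_nonneg _)
    rw [Real.norm_eq_abs, abs_of_nonneg (by linarith), Real.norm_eq_abs,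
      abs_of_nonneg (by positivity)]
    nlinarith
  exact hO.trans_isLittleO (Asymptotics.isLittleO_pow_sub_sub x0 one_lt_two)

/-- A subgradient at a point of differentiability is the gradient. -/
lemma subgradient_eq_gradient {u : F → ℝ} {Ω : Set F} (hΩ : IsOpen Ω) {x p g : F} (hx : x ∈ Ω)
    (hs : ∀ z ∈ Ω, u x + ⟪p, z - x⟫ ≤ u z) (hg : HasGradientAt u g x) : p = g := by
  have h1 : HasFDerivAt (fun z => u z - ⟪p, z - x⟫) (innerSL ℝ g - innerSL ℝ p) x := by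
    have a1 : HasFDerivAt u (innerSL ℝ g) x :=
      hg.hasFDerivAt.congr_fderiv (by ext v; simp)
    have a2 : HasFDerivAt (fun z => innerSL ℝ p (z - x)) (innerSL ℝ p) x :=
      (innerSL ℝ p).hasFDerivAt.comp x ((hasFDerivAt_id x).sub_const x)
    exact a1.sub a2
  have h2 : IsLocalMin (fun z => u z - ⟪p, z - x⟫) x := by
    filter_upwards [hΩ.mem_nhds hx] with z hz
    have := hs z hz
    simp
    linarith
  have h3 := h2.hasFDerivAt_eq_zero h1
  have h4 : ⟪g, g - p⟫ - ⟪p, g - p⟫ = 0 := by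
    have := congrArg (fun L : F →L[ℝ] ℝ => L (g - p)) h3
    simpa using this
  have h5 : g - p = 0 := by
    rw [← inner_self_eq_zero (𝕜 := ℝ), inner_sub_left]; exact h4
  exact (sub_eq_zero.mp h5).symm

lemma hasGradientAt_gradient [Nontrivial F] {u : F → ℝ} {Ω : Set F} (hΩ : IsOpen Ω)
    (hconv : ConvexOn ℝ Ω u) (hcont : ContinuousOn u Ω) (hsup : IsInfSuperharmonic u Ω)
    {x : F} (hx : x ∈ Ω) : HasGradientAt u (gradient u x) x := by
  obtain ⟨p, hp⟩ := exists_hasGradientAt hΩ hconv hcont hsup hx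
  rw [hp.gradient]; exact hp

lemma descentData_gradient [Nontrivial F] {u : F → ℝ} {Ω : Set F} (hΩ : IsOpen Ω)
    (hconv : ConvexOn ℝ Ω u) (hcont : ContinuousOn u Ω) (hsup : IsInfSuperharmonic u Ω)
    {x : F} {r : ℝ} (hr : 0 < r) (hball : closedBall x r ⊆ Ω) :
    DescentData u Ω r x (gradient u x) := by
  have hx : x ∈ Ω := hball (mem_closedBall_self hr.le)
  obtain ⟨p, hp⟩ := exists_descentData hconv hcont hsup hr hball
  have := subgradient_eq_gradient hΩ hx hp.1 (hasGradientAt_gradient hΩ hconv hcont hsup hx)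
  rw [← this]; exact hp

/-- The norm of the gradient of a convex infinity-superharmonic function is constant. -/
lemma norm_gradient_const [Nontrivial F] {u : F → ℝ} {Ω : Set F} (hΩ : IsOpen Ω)
    (hconv : ConvexOn ℝ Ω u) (hcont : ContinuousOn u Ω) (hsup : IsInfSuperharmonic u Ω)
    {x y : F} (hx : x ∈ Ω) (hy : y ∈ Ω) : ‖gradient u x‖ = ‖gradient u y‖ := by
  have hder : ∀ x0 ∈ Ω, HasFDerivAt (fun x => ‖gradient u x‖ ^ 2) (0 : F →L[ℝ] ℝ) x0 := by
    intro x0 hx0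
    obtain ⟨R, hR, hballs⟩ := exists_radius hΩ hx0
    set p0 := gradient u x0 with hp0def
    have hp0 : DescentData u Ω R x0 p0 :=
      descentData_gradient hΩ hconv hcont hsup hR (hballs x0 (mem_closedBall_self hR.le))
    have hO : (fun x => ‖gradient u x‖ ^ 2 - ‖p0‖ ^ 2) =O[𝓝 x0] fun x => ‖x - x0‖ ^ 2 := by
      apply Asymptotics.IsBigO.of_bound (24 * ‖p0‖ ^ 2 / R ^ 2)
      have hnear : ball x0 (R / 2) ∈ 𝓝 x0 := ball_mem_nhds x0 (by positivity)
      filter_upwards [hnear] with x hx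
      have hxd : ‖x - x0‖ ≤ R / 2 := by
        rw [mem_ball, dist_eq_norm] at hx; exact hx.le
      have hxR : x ∈ closedBall x0 R := by
        rw [mem_closedBall, dist_eq_norm]; linarith
      have hxΩ : x ∈ Ω := hballs x hxR (mem_closedBall_self hR.le)
      set p := gradient u x with hpdef
      have hp : DescentData u Ω R x p := descentData_gradient hΩ hconv hcont hsup hR (hballs x hxR)
      obtain ⟨hb1, hb2⟩ := DescentData.local_bounds hR hx0 hxΩ hp0 hp hxd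
      have A := hp0.pair_estimate hxΩ hp.1
      have B := hp.pair_estimate hx0 hp0.1
      have e1 : ⟪p0 - p, x0 - x⟫ = ⟪p - p0, x - x0⟫ := by
        rw [← neg_sub p p0, ← neg_sub x x0, inner_neg_neg]
      rw [e1] at A
      rw [real_inner_comm] at B
      have e2 : ‖p - p0‖ ^ 2 = ‖p‖ ^ 2 - 2 * ⟪p, p0⟫ + ‖p0‖ ^ 2 := norm_sub_sq_real p p0
      rw [real_inner_comm] at e2
      have D : ⟪p - p0, x - x0⟫ ≤ ‖p - p0‖ * ‖x - x0‖ := real_inner_le_norm _ _
      have D2 : ‖p - p0‖ * ‖x - x0‖ ≤ 4 * ‖p0‖ / R * ‖x - x0‖ * ‖x - x0‖ :=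
        mul_le_mul_of_nonneg_right hb2 (norm_nonneg _)
      have D3 : ⟪p - p0, x - x0⟫ ≤ 4 * ‖p0‖ / R * ‖x - x0‖ ^ 2 := by
        calc ⟪p - p0, x - x0⟫ ≤ 4 * ‖p0‖ / R * ‖x - x0‖ * ‖x - x0‖ := D.trans D2
          _ = 4 * ‖p0‖ / R * ‖x - x0‖ ^ 2 := by ring
      set T : ℝ := 4 * ‖p0‖ / R * ‖x - x0‖ ^ 2 with hT
      have hT0 : 0 ≤ T := by positivity
      have sq0 : 0 ≤ ‖p - p0‖ ^ 2 := by positivity
      -- from A
      have A2 : R * (‖p0‖ ^ 2 - ‖p‖ ^ 2) ≤ 2 * ‖p0‖ * T := by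
        have : ‖p0‖ * ⟪p - p0, x - x0⟫ ≤ ‖p0‖ * T := mul_le_mul_of_nonneg_left D3 (norm_nonneg _)
        nlinarith
      have B2 : R * (‖p‖ ^ 2 - ‖p0‖ ^ 2) ≤ 6 * ‖p0‖ * T := by
        have h1 : ‖p‖ * ⟪p - p0, x - x0⟫ ≤ ‖p‖ * T := mul_le_mul_of_nonneg_left D3 (norm_nonneg _)
        have h2 : ‖p‖ * T ≤ 3 * ‖p0‖ * T := mul_le_mul_of_nonneg_right hb1 hT0
        nlinarith
      have hT2 : 6 * ‖p0‖ * T = R * (24 * ‖p0‖ ^ 2 / R ^ 2 * ‖x - x0‖ ^ 2) := by
        rw [hT]; field_simp; ring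
      have hpT : 0 ≤ ‖p0‖ * T := by positivity
      rw [Real.norm_eq_abs, Real.norm_eq_abs, abs_of_nonneg (by positivity : (0:ℝ) ≤ ‖x - x0‖ ^ 2),
        abs_le]
      constructor
      · have : R * (‖p0‖ ^ 2 - ‖p‖ ^ 2) ≤ R * (24 * ‖p0‖ ^ 2 / R ^ 2 * ‖x - x0‖ ^ 2) := by
          rw [← hT2]; linarith
        have := le_of_mul_le_mul_left this hR
        linarith
      · have : R * (‖p‖ ^ 2 - ‖p0‖ ^ 2) ≤ R * (24 * ‖p0‖ ^ 2 / R ^ 2 * ‖x - x0‖ ^ 2) := by
          rw [← hT2]; linarith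
        exact le_of_mul_le_mul_left this hR
    have h1 := hO.hasFDerivAt (𝕜 := ℝ) one_lt_two
    have h2 := h1.add_const (‖p0‖ ^ 2)
    simpa using h2
  have hconst := hΩ.is_const_of_fderiv_eq_zero (𝕜 := ℝ) hconv.1.isPreconnected
    (f := fun x => ‖gradient u x‖ ^ 2)
    (fun z hz => (hder z hz).differentiableAt.differentiableWithinAt)
    (fun z hz => (hder z hz).fderiv) hx hy
  exact (pow_left_inj₀ (norm_nonneg _) (norm_nonneg _) (by norm_num)).mp hconst

lemma subgradient_gradient [Nontrivial F] {u : F → ℝ} {Ω : Set F} (hΩ : IsOpen Ω)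
    (hconv : ConvexOn ℝ Ω u) (hcont : ContinuousOn u Ω) (hsup : IsInfSuperharmonic u Ω)
    {a : F} (ha : a ∈ Ω) : ∀ z ∈ Ω, u a + ⟪gradient u a, z - a⟫ ≤ u z := by
  obtain ⟨R, hR, hballs⟩ := exists_radius hΩ ha
  exact (descentData_gradient hΩ hconv hcont hsup hR (hballs a (mem_closedBall_self hR.le))).1

lemma lipschitz_of_const [Nontrivial F] {u : F → ℝ} {Ω : Set F} (hΩ : IsOpen Ω)
    (hconv : ConvexOn ℝ Ω u) (hcont : ContinuousOn u Ω) (hsup : IsInfSuperharmonic u Ω)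
    {a b : F} (ha : a ∈ Ω) (hb : b ∈ Ω) : u a - u b ≤ ‖gradient u a‖ * ‖a - b‖ := by
  have h1 := subgradient_gradient hΩ hconv hcont hsup ha b hb
  have h2 : -⟪gradient u a, b - a⟫ ≤ ‖gradient u a‖ * ‖a - b‖ := by
    rw [← inner_neg_right, neg_sub]; exact real_inner_le_norm _ _
  linarith

omit [FiniteDimensional ℝ F] in
/-- forward and backward points at distance `r` -/
lemma DescentData.two_points {u : F → ℝ} {Ω : Set F} {r : ℝ} {x p : F}
    (hball : closedBall x r ⊆ Ω) (h : DescentData u Ω r x p) (hp : p ≠ 0) :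
    ∃ c : F, ‖c‖ = r ∧ ‖p‖ • c = -(r • p) ∧ x + c ∈ closedBall x r ∧ x - c ∈ closedBall x r ∧
      u (x + c) = u x - r * ‖p‖ ∧ u x + r * ‖p‖ ≤ u (x - c) := by
  obtain ⟨hs, y, hy, hyr, e, d⟩ := h
  have hpn : 0 < ‖p‖ := norm_pos_iff.mpr hp
  refine ⟨y - x, hyr, d, ?_, ?_, ?_, ?_⟩
  · rw [mem_closedBall, dist_eq_norm]; simp [hyr]
  · rw [mem_closedBall, dist_eq_norm]; simp [norm_sub_rev x y, hyr]
  · simpa using e
  · have hm : x - (y - x) ∈ Ω := hball (by
      rw [mem_closedBall, dist_eq_norm]; simp [norm_sub_rev x y, hyr])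
    have h1 := hs _ hm
    have h2 : x - (y - x) - x = -(y - x) := by abel
    rw [h2, inner_neg_right] at h1
    have h3 : ‖p‖ * ⟪p, y - x⟫ = ‖p‖ * (-(r * ‖p‖)) := by
      rw [← inner_smul_right, d, inner_neg_right, inner_smul_right, real_inner_self_eq_norm_sq]
      ring
    have h4 : ⟪p, y - x⟫ = -(r * ‖p‖) := mul_left_cancel₀ hpn.ne' h3
    rw [h4] at h1
    linarith

/-- The sharp interior Lipschitz estimate for the gradient. -/
lemma gradient_lipschitz_sharp [Nontrivial F] {u : F → ℝ} {Ω : Set F} (hΩ : IsOpen Ω)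
    (hconv : ConvexOn ℝ Ω u) (hcont : ContinuousOn u Ω) (hsup : IsInfSuperharmonic u Ω)
    {x0 x1 : F} {r : ℝ} (hr : 0 < r) (hb0 : closedBall x0 r ⊆ Ω) (hb1 : closedBall x1 r ⊆ Ω) :
    r * ‖gradient u x0 - gradient u x1‖ ≤ ‖gradient u x0‖ * ‖x0 - x1‖ := by
  have hx0 : x0 ∈ Ω := hb0 (mem_closedBall_self hr.le)
  have hx1 : x1 ∈ Ω := hb1 (mem_closedBall_self hr.le)
  have hL : ‖gradient u x1‖ = ‖gradient u x0‖ := norm_gradient_const hΩ hconv hcont hsup hx1 hx0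
  set p0 := gradient u x0 with hp0
  set p1 := gradient u x1 with hp1
  set L := ‖p0‖ with hLdef
  by_cases hz : p0 = 0
  · have hL0 : L = 0 := by rw [hLdef, hz, norm_zero]
    have hz1 : p1 = 0 := by rw [← norm_eq_zero, hL, hL0]
    rw [hz, hz1, hL0]; simp
  have hLpos : 0 < L := norm_pos_iff.mpr hz
  have hz1 : p1 ≠ 0 := by rw [← norm_pos_iff, hL]; exact hLpos
  obtain ⟨c0, hc0, d0, m0, m0', e0, f0⟩ :=
    (descentData_gradient hΩ hconv hcont hsup hr hb0).two_points hb0 hz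
  obtain ⟨c1, hc1, d1, m1, m1', e1, f1⟩ :=
    (descentData_gradient hΩ hconv hcont hsup hr hb1).two_points hb1 hz1
  rw [← hp0, ← hLdef] at d0 e0 f0
  rw [← hp1, hL] at d1 e1 f1
  have l1 := lipschitz_of_const hΩ hconv hcont hsup (hb0 m0') (hb1 m1)
  have l2 := lipschitz_of_const hΩ hconv hcont hsup (hb1 m1') (hb0 m0)
  rw [norm_gradient_const hΩ hconv hcont hsup (hb0 m0') hx0, ← hp0, ← hLdef] at l1
  rw [norm_gradient_const hΩ hconv hcont hsup (hb1 m1') hx0, ← hp0, ← hLdef] at l2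
  set a := x0 - x1 with ha
  set b := c0 + c1 with hb
  have g1 : x0 - c0 - (x1 + c1) = a - b := by rw [ha, hb]; abel
  have g2 : x1 - c1 - (x0 + c0) = -(a + b) := by rw [ha, hb]; abel
  rw [g1] at l1
  rw [g2, norm_neg] at l2
  have s1 : L * (4 * r) ≤ L * (‖a - b‖ + ‖a + b‖) := by nlinarith
  have s2 : 4 * r ≤ ‖a - b‖ + ‖a + b‖ := le_of_mul_le_mul_left s1 hLpos
  have par1 := parallelogram_law_with_norm ℝ a b
  have par2 := parallelogram_law_with_norm ℝ c0 c1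
  rw [hc0, hc1, ← hb] at par2
  have s3 : (‖a - b‖ + ‖a + b‖) ^ 2 ≤ 2 * (‖a + b‖ * ‖a + b‖ + ‖a - b‖ * ‖a - b‖) := by
    nlinarith [sq_nonneg (‖a - b‖ - ‖a + b‖)]
  have s4 : (4 * r) ^ 2 ≤ (‖a - b‖ + ‖a + b‖) ^ 2 := by
    apply pow_le_pow_left₀ (by positivity) s2
  have s5 : ‖c0 - c1‖ ^ 2 ≤ ‖a‖ ^ 2 := by nlinarith
  have s6 : ‖c0 - c1‖ ≤ ‖a‖ := (pow_le_pow_iff_left₀ (norm_nonneg _) (norm_nonneg _) (by norm_num)).mp s5
  have s7 : r * ‖p0 - p1‖ = L * ‖c0 - c1‖ := by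
    have : r • (p0 - p1) = -(L • (c0 - c1)) := by
      rw [smul_sub, smul_sub, d0, d1]; abel
    calc r * ‖p0 - p1‖ = ‖r • (p0 - p1)‖ := by
          rw [norm_smul, Real.norm_eq_abs, abs_of_pos hr]
      _ = ‖L • (c0 - c1)‖ := by rw [this, norm_neg]
      _ = L * ‖c0 - c1‖ := by rw [norm_smul, Real.norm_eq_abs, abs_of_pos hLpos]
  rw [s7]
  exact mul_le_mul_of_nonneg_left s6 hLpos.le

/-- The gradient norm is controlled by the oscillation on a ball. -/
lemma gradient_le_osc [Nontrivial F] {u : F → ℝ} {Ω : Set F} (hΩ : IsOpen Ω)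
    (hconv : ConvexOn ℝ Ω u) (hcont : ContinuousOn u Ω) (hsup : IsInfSuperharmonic u Ω)
    {x : F} {r M : ℝ} (hr : 0 < r) (hb : closedBall x r ⊆ Ω)
    (hM : ∀ a ∈ closedBall x r, ∀ b ∈ closedBall x r, u a - u b ≤ M) :
    2 * r * ‖gradient u x‖ ≤ M := by
  by_cases hz : gradient u x = 0
  · rw [hz, norm_zero, mul_zero]
    have := hM x (mem_closedBall_self hr.le) x (mem_closedBall_self hr.le)
    simpa using this
  obtain ⟨c, hc, d, m, m', e, f⟩ :=
    (descentData_gradient hΩ hconv hcont hsup hr hb).two_points hb hz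
  have := hM _ m' _ m
  linarith

/-- Main theorem for convex viscosity supersolutions. -/
theorem convex_superharmonic_main [Nontrivial F] {u : F → ℝ} {Ω : Set F} (hΩ : IsOpen Ω)
    (hconv : ConvexOn ℝ Ω u) (hcont : ContinuousOn u Ω) (hsup : IsInfSuperharmonic u Ω) :
    ContDiffOn ℝ 1 u Ω ∧ ∃ L : ℝ, (∀ x ∈ Ω, ‖gradient u x‖ = L) ∧
      (∀ x y : F, ∀ r : ℝ, 0 < r → closedBall x r ⊆ Ω → closedBall y r ⊆ Ω →
        ‖gradient u x - gradient u y‖ ≤ L / r * ‖x - y‖) ∧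
      (∀ x : F, ∀ r M : ℝ, 0 < r → closedBall x r ⊆ Ω →
        (∀ a ∈ closedBall x r, ∀ b ∈ closedBall x r, u a - u b ≤ M) → 2 * r * L ≤ M) := by
  have hlip : ∀ x y : F, ∀ r : ℝ, 0 < r → closedBall x r ⊆ Ω → closedBall y r ⊆ Ω →
        ‖gradient u x - gradient u y‖ ≤ ‖gradient u x‖ / r * ‖x - y‖ := by
    intro x y r hr hx hy
    have := gradient_lipschitz_sharp hΩ hconv hcont hsup hr hx hy
    rw [div_mul_eq_mul_div, le_div_iff₀ hr]
    linarith
  constructor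
  · have hdiff : DifferentiableOn ℝ u Ω := fun x hx =>
      (hasGradientAt_gradient hΩ hconv hcont hsup hx).differentiableAt.differentiableWithinAt
    have hgc : ContinuousOn (gradient u) Ω := by
      intro x0 hx0
      apply ContinuousAt.continuousWithinAt
      obtain ⟨R, hR, hballs⟩ := exists_radius hΩ hx0
      apply continuousAt_of_locally_lipschitz hR (‖gradient u x0‖ / R)
      intro y hy
      have h1 := hlip x0 y R hR (hballs x0 (mem_closedBall_self hR.le))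
        (hballs y (mem_closedBall.mpr hy.le))
      rw [dist_eq_norm, dist_eq_norm, norm_sub_rev, norm_sub_rev y x0]
      exact h1
    have hfc : ContinuousOn (fderiv ℝ u) Ω := by
      have : fderiv ℝ u = fun x => InnerProductSpace.toDual ℝ F (gradient u x) := by
        funext x; rw [toDual_gradient]
      rw [this]
      exact (InnerProductSpace.toDual ℝ F).continuous.comp_continuousOn hgc
    rw [show (1 : WithTop ℕ∞) = 0 + 1 by simp, contDiffOn_succ_iff_fderiv_of_isOpen hΩ]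
    exact ⟨hdiff, by simp, contDiffOn_zero.mpr hfc⟩
  · rcases Ω.eq_empty_or_nonempty with hE | ⟨xs, hxs⟩
    · refine ⟨0, by simp [hE], ?_, ?_⟩
      · intro x y r hr hx
        exact absurd (hx (mem_closedBall_self hr.le)) (by simp [hE])
      · intro x r M hr hx
        exact absurd (hx (mem_closedBall_self hr.le)) (by simp [hE])
    · refine ⟨‖gradient u xs‖, fun x hx => norm_gradient_const hΩ hconv hcont hsup hx hxs, ?_, ?_⟩
      · intro x y r hr hx hy
        rw [← norm_gradient_const hΩ hconv hcont hsup (hx (mem_closedBall_self hr.le)) hxs]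
        exact hlip x y r hr hx hy
      · intro x r M hr hx hM
        rw [← norm_gradient_const hΩ hconv hcont hsup (hx (mem_closedBall_self hr.le)) hxs]
        exact gradient_le_osc hΩ hconv hcont hsup hr hx hM

lemma gradient_fun_neg (u : F → ℝ) (x : F) : gradient (fun y => -u y) x = -gradient u x := by
  unfold gradient
  rw [fderiv_fun_neg, map_neg]

lemma infLaplacian_fun_neg (φ : F → ℝ) (z : F) :
    infLaplacian (fun y => -φ y) z = -infLaplacian φ z := by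
  unfold infLaplacian
  rw [gradient_fun_neg]
  have h1 : fderiv ℝ (fun y => -φ y) = fun y => -fderiv ℝ φ y := by
    funext y; rw [fderiv_fun_neg]
  rw [h1, fderiv_fun_neg]
  simp

lemma IsInfSubharmonic.neg {u : F → ℝ} {Ω : Set F} (h : IsInfSubharmonic u Ω) :
    IsInfSuperharmonic (fun x => -u x) Ω := by
  intro φ z hz hφ hmin
  have h1 : IsLocalMax (fun x => u x - (-φ x)) z := by
    have := hmin.neg
    refine this.congr ?_
    filter_upwards with x
    ring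
  have h2 := h (fun x => -φ x) z hz hφ.neg h1
  rw [infLaplacian_fun_neg] at h2
  linarith

/-- Main theorem: convex or concave infinity-harmonic functions. -/
theorem convex_or_concave_main [Nontrivial F] {u : F → ℝ} {Ω : Set F} (hΩ : IsOpen Ω)
    (hu : IsInfHarmonic u Ω) (hc : ConvexOn ℝ Ω u ∨ ConcaveOn ℝ Ω u) :
    ContDiffOn ℝ 1 u Ω ∧ ∃ L : ℝ, (∀ x ∈ Ω, ‖gradient u x‖ = L) ∧
      (∀ x y : F, ∀ r : ℝ, 0 < r → closedBall x r ⊆ Ω → closedBall y r ⊆ Ω →
        ‖gradient u x - gradient u y‖ ≤ L / r * ‖x - y‖) ∧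
      (∀ x : F, ∀ r M : ℝ, 0 < r → closedBall x r ⊆ Ω →
        (∀ a ∈ closedBall x r, ∀ b ∈ closedBall x r, u a - u b ≤ M) → 2 * r * L ≤ M) := by
  obtain ⟨hcont, hsub, hsup⟩ := hu
  rcases hc with hc | hc
  · exact convex_superharmonic_main hΩ hc hcont hsup
  · obtain ⟨h1, L, h2, h3, h4⟩ := convex_superharmonic_main hΩ hc.neg hcont.neg hsub.neg
    refine ⟨?_, L, ?_, ?_, ?_⟩
    · have := h1.neg
      simpa using this
    · intro x hx
      have := h2 x hx
      rw [show (-u) = fun y => -u y from rfl, gradient_fun_neg, norm_neg] at this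
      exact this
    · intro x y r hr hx hy
      have := h3 x y r hr hx hy
      rw [show (-u) = fun y => -u y from rfl, gradient_fun_neg, gradient_fun_neg,
        ← neg_sub', norm_neg] at this
      exact this
    · intro x r M hr hx hM
      apply h4 x r M hr hx
      intro a ha b hb
      have := hM b hb a ha
      simp only [Pi.neg_apply]
      linarith

end FinDim2

end Vale.Agent.P080
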