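import Mathlib

/-!
# Infinity-harmonic functions: definitions

The (unnormalised) infinity Laplacian and viscosity sub/super/solutions of `Δ_∞ u = 0`.
-/

namespace Vale.Agent.P080

variable {F : Type*} [NormedAddCommGroup F] [InnerProductSpace ℝ F] [CompleteSpace F]

/-- The (unnormalised) infinity Laplacian `Δ_∞ φ (z) = ⟨D²φ(z) ∇φ(z), ∇φ(z)⟩`:
the second Frechet derivative of `φ` at `z` evaluated twice at the gradient of `φ` at `z`. -/
noncomputable def infLaplacian (φ : F → ℝ) (z : F) : ℝ :=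
  fderiv ℝ (fderiv ℝ φ) z (gradient φ z) (gradient φ z)

/-- Viscosity subsolution of `Δ_∞ u = 0` on `Ω`: whenever `φ` is `C²` near `z ∈ Ω` and
`u - φ` has a local maximum at `z`, then `Δ_∞ φ (z) ≥ 0`. -/
def IsInfSubharmonic (u : F → ℝ) (Ω : Set F) : Prop :=
  ∀ (φ : F → ℝ) (z : F), z ∈ Ω → ContDiffAt ℝ 2 φ z →
    IsLocalMax (fun x => u x - φ x) z → 0 ≤ infLaplacian φ z

/-- Viscosity supersolution of `Δ_∞ u = 0` on `Ω`: whenever `φ` is `C²` near `z ∈ Ω` and
`u - φ` has a local minimum at `z`, then `Δ_∞ φ (z) ≤ 0`. -/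
def IsInfSuperharmonic (u : F → ℝ) (Ω : Set F) : Prop :=
  ∀ (φ : F → ℝ) (z : F), z ∈ Ω → ContDiffAt ℝ 2 φ z →
    IsLocalMin (fun x => u x - φ x) z → infLaplacian φ z ≤ 0

/-- `u` is infinity-harmonic on `Ω`: continuous on `Ω` and a viscosity solution of
`Δ_∞ u = 0` there. -/
def IsInfHarmonic (u : F → ℝ) (Ω : Set F) : Prop :=
  ContinuousOn u Ω ∧ IsInfSubharmonic u Ω ∧ IsInfSuperharmonic u Ω

end Vale.Agent.P080
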