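import Vale.Agent.P080.Quasi

/-! Quantitative flatness of infinity-harmonic functions at small scales (after Crandall-Evans),
and differentiability at points touched by a ball on which `u ≥ u x`. -/

namespace Vale.Agent.P080

open Filter Topology Metric Set

variable {F : Type*} [NormedAddCommGroup F] [InnerProductSpace ℝ F] [FiniteDimensional ℝ F]

open scoped RealInnerProductSpace

/-- `u` lies below the cone of slope `s` with vertex `x` on the closed ball of radius `r`. -/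
def UpSlope (u : F → ℝ) (x : F) (r s : ℝ) : Prop :=
  ∀ y ∈ closedBall x r, u y ≤ u x + s * ‖y - x‖

omit [InnerProductSpace ℝ F] [FiniteDimensional ℝ F] in
lemma UpSlope.mono {u : F → ℝ} {x : F} {r r' s s' : ℝ} (h : UpSlope u x r s) (hr : r' ≤ r)
    (hs : s ≤ s') : UpSlope u x r' s' := by
  intro y hy
  have h1 := h y (closedBall_subset_closedBall hr hy)
  have h2 : s * ‖y - x‖ ≤ s' * ‖y - x‖ := mul_le_mul_of_nonneg_right hs (norm_nonneg _)
  linarith

/-- the slope of the smallest cone above `u` on a ball is attained on the sphere -/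
lemma exists_upSlope [Nontrivial F] {u : F → ℝ} {Ω : Set F} (hcont : ContinuousOn u Ω)
    (hsub : IsInfSubharmonic u Ω) {x : F} {r : ℝ} (hr : 0 < r) (hball : closedBall x r ⊆ Ω) :
    ∃ s : ℝ, 0 ≤ s ∧ UpSlope u x r s ∧ ∃ y ∈ sphere x r, u y = u x + s * r := by
  have hsc : IsCompact (sphere x r) := isCompact_sphere x r
  have hsne : (sphere x r).Nonempty := (NormedSpace.sphere_nonempty).mpr hr.le
  have hsubs : sphere x r ⊆ Ω := sphere_subset_closedBall.trans hball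
  obtain ⟨y, hy, hmax⟩ := hsc.exists_isMaxOn hsne (hcont.mono hsubs)
  obtain ⟨y', hy', hle⟩ := exists_sphere_le (u := fun z => -u z) hcont.neg hsub.neg hr hball
  have h1 : u y' ≤ u y := hmax hy'
  refine ⟨(u y - u x) / r, div_nonneg (by linarith) hr.le, ?_, y, hy, by field_simp; ring⟩
  apply cone_comparison_above hcont hsub hr hball
  intro z hz
  have h2 : u z ≤ u y := hmax hz
  have h3 : (u y - u x) / r * r = u y - u x := by field_simp
  linarith

/-- the set of admissible upper slopes at `x` -/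
def slopeSet (u : F → ℝ) (Ω : Set F) (x : F) : Set ℝ :=
  {s | 0 ≤ s ∧ ∃ r : ℝ, 0 < r ∧ closedBall x r ⊆ Ω ∧ UpSlope u x r s}

/-- the infinitesimal upper slope of `u` at `x` -/
noncomputable def Lp (u : F → ℝ) (Ω : Set F) (x : F) : ℝ := sInf (slopeSet u Ω x)

omit [InnerProductSpace ℝ F] [FiniteDimensional ℝ F] in
lemma slopeSet_bddBelow (u : F → ℝ) (Ω : Set F) (x : F) : BddBelow (slopeSet u Ω x) :=
  ⟨0, fun _ hs => hs.1⟩

lemma slopeSet_nonempty [Nontrivial F] {u : F → ℝ} {Ω : Set F} (hΩ : IsOpen Ω)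
    (hcont : ContinuousOn u Ω) (hsub : IsInfSubharmonic u Ω) {x : F} (hx : x ∈ Ω) :
    (slopeSet u Ω x).Nonempty := by
  obtain ⟨R, hR, hb⟩ := exists_radius hΩ hx
  have hball := hb x (mem_closedBall_self hR.le)
  obtain ⟨s, hs0, hs, -⟩ := exists_upSlope hcont hsub hR hball
  exact ⟨s, hs0, R, hR, hball, hs⟩

lemma Lp_nonneg [Nontrivial F] {u : F → ℝ} {Ω : Set F} (hΩ : IsOpen Ω)
    (hcont : ContinuousOn u Ω) (hsub : IsInfSubharmonic u Ω) {x : F} (hx : x ∈ Ω) :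
    0 ≤ Lp u Ω x :=
  le_csInf (slopeSet_nonempty hΩ hcont hsub hx) (fun _ hs => hs.1)

lemma exists_upSlope_Lp [Nontrivial F] {u : F → ℝ} {Ω : Set F} (hΩ : IsOpen Ω)
    (hcont : ContinuousOn u Ω) (hsub : IsInfSubharmonic u Ω) {x : F} (hx : x ∈ Ω) {ε : ℝ}
    (hε : 0 < ε) : ∃ r : ℝ, 0 < r ∧ closedBall x r ⊆ Ω ∧ UpSlope u x r (Lp u Ω x + ε) := by
  obtain ⟨s, hs, hlt⟩ := exists_lt_of_csInf_lt (slopeSet_nonempty hΩ hcont hsub hx)
    (show sInf (slopeSet u Ω x) < Lp u Ω x + ε by unfold Lp; linarith)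
  obtain ⟨-, r, hr, hball, hup⟩ := hs
  exact ⟨r, hr, hball, hup.mono le_rfl hlt.le⟩

lemma exists_sphere_ge_Lp [Nontrivial F] {u : F → ℝ} {Ω : Set F}
    (hcont : ContinuousOn u Ω) (hsub : IsInfSubharmonic u Ω) {x : F} {r : ℝ} (hr : 0 < r)
    (hball : closedBall x r ⊆ Ω) : ∃ y ∈ sphere x r, u x + Lp u Ω x * r ≤ u y := by
  obtain ⟨s, hs0, hs, y, hy, hyeq⟩ := exists_upSlope hcont hsub hr hball
  refine ⟨y, hy, ?_⟩
  have h1 : Lp u Ω x ≤ s := csInf_le (slopeSet_bddBelow u Ω x) ⟨hs0, r, hr, hball, hs⟩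
  have h2 : Lp u Ω x * r ≤ s * r := mul_le_mul_of_nonneg_right h1 hr.le
  linarith

/-- the lower slope is at most the upper slope -/
lemma Lp_neg_le [Nontrivial F] {u : F → ℝ} {Ω : Set F} (hΩ : IsOpen Ω) (hu : IsInfHarmonic u Ω)
    {x0 : F} (hx0 : x0 ∈ Ω) : Lp (fun x => -u x) Ω x0 ≤ Lp u Ω x0 := by
  obtain ⟨hcont, hsub, hsup⟩ := hu
  set Lm := Lp (fun x => -u x) Ω x0 with hLm
  set L := Lp u Ω x0 with hL
  have hL0 : 0 ≤ L := Lp_nonneg hΩ hcont hsub hx0
  have hLm0 : 0 ≤ Lm := Lp_nonneg (u := fun x => -u x) hΩ hcont.neg hsup.neg hx0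
  apply le_of_forall_pos_le_add
  intro ε hε
  obtain ⟨r1, hr1, hb1, hup1⟩ := exists_upSlope_Lp hΩ hcont hsub hx0 (ε := ε / 2) (by positivity)
  obtain ⟨r2, hr2, hb2, hup2⟩ := exists_upSlope_Lp (u := fun x => -u x) hΩ hcont.neg hsup.neg hx0 (ε := 1) one_pos
  rw [← hL] at hup1
  rw [← hLm] at hup2
  set a := L + ε / 2 with ha
  set D := Lm + 1 with hD
  have ha0 : 0 < a := by positivity
  have hD0 : 0 < D := by positivity
  set ρ := min r2 (min (r1 / 2) (ε * r1 / (2 * (D + a + ε / 2)))) with hρ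
  have hρ0 : 0 < ρ := by rw [hρ]; positivity
  have hρ2 : ρ ≤ r2 := min_le_left _ _
  have hρ1 : ρ ≤ r1 / 2 := (min_le_right _ _).trans (min_le_left _ _)
  have hρ3 : ρ ≤ ε * r1 / (2 * (D + a + ε / 2)) := (min_le_right _ _).trans (min_le_right _ _)
  have hρ3' : ρ * (D + a + ε / 2) ≤ ε / 2 * r1 := by
    rw [le_div_iff₀ (by positivity)] at hρ3
    linarith
  have hbρ : closedBall x0 ρ ⊆ Ω := (closedBall_subset_closedBall (by linarith)).trans hb1
  obtain ⟨y, hy, hyle⟩ := exists_sphere_ge_Lp (u := fun x => -u x) hcont.neg hsup.neg hρ0 hbρ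
  rw [← hLm] at hyle
  have hyn : ‖y - x0‖ = ρ := by simpa [dist_eq_norm] using hy
  set R' := r1 - ρ with hR'
  have hR'0 : 0 < R' := by rw [hR']; linarith
  have hsubball : closedBall y R' ⊆ closedBall x0 r1 := by
    apply closedBall_subset_closedBall'
    rw [dist_eq_norm, hyn, hR']; linarith
  have hdown : u x0 ≤ u y + D * ρ := by
    have := hup2 y (by rw [mem_closedBall, dist_eq_norm, hyn]; exact hρ2)
    rw [hyn] at this
    linarith
  have hcone := cone_comparison_above hcont hsub (x0 := y) (r := R')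
    (s := (a * r1 + D * ρ) / R') hR'0 (hsubball.trans hb1) (by
    intro z hz
    have hz1 : z ∈ closedBall x0 r1 := hsubball (sphere_subset_closedBall hz)
    have h1 := hup1 z hz1
    have h2 : ‖z - x0‖ ≤ r1 := by rwa [mem_closedBall, dist_eq_norm] at hz1
    have h3 : a * ‖z - x0‖ ≤ a * r1 := mul_le_mul_of_nonneg_left h2 ha0.le
    have h4 : (a * r1 + D * ρ) / R' * R' = a * r1 + D * ρ := by field_simp
    linarith)
  have h5 := hcone x0 (by rw [mem_closedBall, dist_eq_norm, norm_sub_rev, hyn, hR']; linarith)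
  rw [norm_sub_rev, hyn] at h5
  have h6 : Lm * ρ ≤ (a * r1 + D * ρ) / R' * ρ := by linarith
  have h7 : Lm ≤ (a * r1 + D * ρ) / R' := le_of_mul_le_mul_right h6 hρ0
  have h8 : (a * r1 + D * ρ) / R' ≤ a + ε / 2 := by
    rw [div_le_iff₀ hR'0, hR']
    nlinarith
  linarith

lemma Lp_neg_eq [Nontrivial F] {u : F → ℝ} {Ω : Set F} (hΩ : IsOpen Ω) (hu : IsInfHarmonic u Ω)
    {x0 : F} (hx0 : x0 ∈ Ω) : Lp (fun x => -u x) Ω x0 = Lp u Ω x0 := by
  apply le_antisymm (Lp_neg_le hΩ hu hx0)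
  have := Lp_neg_le hΩ hu.neg hx0
  simpa using this

/-- local Lipschitz estimate with constant close to the infinitesimal slope -/
lemma local_lipschitz [Nontrivial F] {u : F → ℝ} {Ω : Set F} (hΩ : IsOpen Ω)
    (hu : IsInfHarmonic u Ω) {x0 : F} (hx0 : x0 ∈ Ω) {ε : ℝ} (hε : 0 < ε) :
    ∃ ρ0 : ℝ, 0 < ρ0 ∧ closedBall x0 ρ0 ⊆ Ω ∧
      ∀ x ∈ closedBall x0 ρ0, ∀ y ∈ closedBall x0 ρ0, u y - u x ≤ (Lp u Ω x0 + ε) * ‖y - x‖ := by
  have hLeq := Lp_neg_eq hΩ hu hx0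
  obtain ⟨hcont, hsub, hsup⟩ := hu
  set L := Lp u Ω x0 with hL
  have hL0 : 0 ≤ L := Lp_nonneg hΩ hcont hsub hx0
  obtain ⟨r1, hr1, hb1, hup1⟩ := exists_upSlope_Lp hΩ hcont hsub hx0 (ε := ε / 2) (by positivity)
  obtain ⟨r2, hr2, hb2, hup2⟩ := exists_upSlope_Lp (u := fun x => -u x) hΩ hcont.neg hsup.neg hx0 (ε := ε / 2)
    (by positivity)
  rw [hLeq] at hup2
  set a := L + ε / 2 with ha
  have ha0 : 0 < a := by positivity
  set R := min r1 r2 with hR
  have hR0 : 0 < R := lt_min hr1 hr2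
  have hupR : UpSlope u x0 R a := hup1.mono (min_le_left _ _) le_rfl
  have hdnR : UpSlope (fun x => -u x) x0 R a := hup2.mono (min_le_right _ _) le_rfl
  have hbR : closedBall x0 R ⊆ Ω := (closedBall_subset_closedBall (min_le_left _ _)).trans hb1
  set θ := min (1 / 3) (ε / (2 * (2 * a + ε / 2))) with hθ
  have hθ0 : 0 < θ := by rw [hθ]; positivity
  have hθ1 : θ ≤ 1 / 3 := min_le_left _ _
  have hθ2 : θ * (2 * a + ε / 2) ≤ ε / 2 := by
    have : θ ≤ ε / (2 * (2 * a + ε / 2)) := min_le_right _ _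
    rw [le_div_iff₀ (by positivity)] at this
    linarith
  set ρ0 := θ * R with hρ0
  have hρ00 : 0 < ρ0 := by positivity
  have hρ0R : ρ0 ≤ R / 3 := by rw [hρ0]; nlinarith
  refine ⟨ρ0, hρ00, (closedBall_subset_closedBall (by linarith)).trans hbR, ?_⟩
  intro x hx y hy
  have hxn : ‖x - x0‖ ≤ ρ0 := by rwa [mem_closedBall, dist_eq_norm] at hx
  have hyn : ‖y - x0‖ ≤ ρ0 := by rwa [mem_closedBall, dist_eq_norm] at hy
  set R' := R - ρ0 with hR'
  have hR'0 : 0 < R' := by rw [hR']; linarith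
  have hsubball : closedBall x R' ⊆ closedBall x0 R := by
    apply closedBall_subset_closedBall'
    rw [dist_eq_norm, hR']; linarith
  have hxlow : u x0 - a * ρ0 ≤ u x := by
    have := hdnR x (closedBall_subset_closedBall (by linarith) hx)
    have h2 : a * ‖x - x0‖ ≤ a * ρ0 := mul_le_mul_of_nonneg_left hxn ha0.le
    linarith
  have hcone := cone_comparison_above hcont hsub (x0 := x) (r := R')
    (s := a * (R + ρ0) / R') hR'0 (hsubball.trans hbR) (by
    intro z hz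
    have hz1 : z ∈ closedBall x0 R := hsubball (sphere_subset_closedBall hz)
    have h1 := hupR z hz1
    have h2 : ‖z - x0‖ ≤ R := by rwa [mem_closedBall, dist_eq_norm] at hz1
    have h3 : a * ‖z - x0‖ ≤ a * R := mul_le_mul_of_nonneg_left h2 ha0.le
    have h4 : a * (R + ρ0) / R' * R' = a * (R + ρ0) := by field_simp
    linarith)
  have hyx : ‖y - x‖ ≤ R' := by
    calc ‖y - x‖ = ‖(y - x0) - (x - x0)‖ := by congr 1; abel
      _ ≤ ‖y - x0‖ + ‖x - x0‖ := norm_sub_le _ _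
      _ ≤ R' := by rw [hR']; linarith
  have h5 := hcone y (by rw [mem_closedBall, dist_eq_norm]; exact hyx)
  have h6 : a * (R + ρ0) / R' ≤ L + ε := by
    rw [div_le_iff₀ hR'0, hR', hρ0]
    have : a * (R + θ * R) = R * (a * (1 + θ)) := by ring
    have h7 : (L + ε) * (R - θ * R) = R * ((L + ε) * (1 - θ)) := by ring
    rw [this, h7]
    apply mul_le_mul_of_nonneg_left _ hR0.le
    have : L + ε = a + ε / 2 := by rw [ha]; ring
    rw [this]
    nlinarith
  have h7 : a * (R + ρ0) / R' * ‖y - x‖ ≤ (L + ε) * ‖y - x‖ :=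
    mul_le_mul_of_nonneg_right h6 (norm_nonneg _)
  linarith

/-- flatness from above at small scales -/
lemma flat_upper [Nontrivial F] {u : F → ℝ} {Ω : Set F} (hΩ : IsOpen Ω)
    (hu : IsInfHarmonic u Ω) {x0 : F} (hx0 : x0 ∈ Ω) {η : ℝ} (hη : 0 < η) :
    ∃ rs : ℝ, 0 < rs ∧ ∀ r : ℝ, 0 < r → r ≤ rs → ∃ ω : F, ‖ω‖ = 1 ∧
      ∀ h : F, ‖h‖ ≤ r → u (x0 + h) ≤ u x0 + Lp u Ω x0 * ⟪ω, h⟫ + η * r := by
  have hLeq := Lp_neg_eq hΩ hu hx0
  set L := Lp u Ω x0 with hL
  have hL0 : 0 ≤ L := Lp_nonneg hΩ hu.1 hu.2.1 hx0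
  set K : ℝ := max 1 (2 * (L + 1) / η) with hK
  have hK1 : 1 ≤ K := le_max_left _ _
  have hK0 : 0 < K := by linarith
  have hK2 : 2 * (L + 1) ≤ η * K := by
    have : 2 * (L + 1) / η ≤ K := le_max_right _ _
    rw [div_le_iff₀ hη] at this
    linarith
  set ε : ℝ := min 1 (η / (8 * K)) with hε
  have hε0 : 0 < ε := by rw [hε]; positivity
  have hε1 : ε ≤ 1 := min_le_left _ _
  have hε2 : ε * K ≤ η / 8 := by
    have : ε ≤ η / (8 * K) := min_le_right _ _
    rw [le_div_iff₀ (by positivity)] at this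
    linarith
  obtain ⟨ρ0, hρ0, hbρ, hlip⟩ := local_lipschitz hΩ hu hx0 hε0
  rw [← hL] at hlip
  refine ⟨ρ0 / (K + 1), by positivity, fun r hr hrs => ?_⟩
  have hrK : (K + 1) * r ≤ ρ0 := by
    rw [le_div_iff₀ (by positivity)] at hrs
    linarith
  have hKr0 : 0 < K * r := by positivity
  have hKrρ : K * r ≤ ρ0 := by nlinarith
  have hrρ : r ≤ ρ0 := by nlinarith
  obtain ⟨y, hy, hyle⟩ := exists_sphere_ge_Lp (u := fun x => -u x) hu.1.neg hu.2.2.neg hKr0
    ((closedBall_subset_closedBall hKrρ).trans hbρ)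
  rw [hLeq] at hyle
  have hyn : ‖y - x0‖ = K * r := by simpa [dist_eq_norm] using hy
  set ω : F := (1 / (K * r)) • (x0 - y) with hω
  have hω1 : ‖ω‖ = 1 := by
    rw [hω, norm_smul, norm_sub_rev, hyn, Real.norm_eq_abs, abs_of_pos (by positivity)]
    field_simp
  have hyω : x0 - y = (K * r) • ω := by
    rw [hω, smul_smul]
    have : K * r * (1 / (K * r)) = 1 := by field_simp
    rw [this, one_smul]
  refine ⟨ω, hω1, fun h hh => ?_⟩
  have hmem1 : x0 + h ∈ closedBall x0 ρ0 := by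
    rw [mem_closedBall, dist_eq_norm, add_sub_cancel_left]; linarith
  have hmem2 : y ∈ closedBall x0 ρ0 := by
    rw [mem_closedBall, dist_eq_norm, hyn]; exact hKrρ
  have h1 := hlip y hmem2 (x0 + h) hmem1
  have e1 : x0 + h - y = (K * r) • ω + h := by rw [← hyω]; abel
  rw [e1] at h1
  have hne : (K * r) • ω ≠ 0 := by
    intro h0
    have := congrArg norm h0
    rw [norm_smul, hω1, norm_zero, mul_one, Real.norm_eq_abs, abs_of_pos hKr0] at this
    linarith
  have h2 := norm_add_le_quadratic (a := (K * r) • ω) (h := h) hne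
  rw [norm_smul, hω1, mul_one, Real.norm_eq_abs, abs_of_pos hKr0, inner_smul_left] at h2
  simp only [conj_trivial] at h2
  have h3 : K * r + (2 * (K * r * ⟪ω, h⟫) + ‖h‖ ^ 2) / (2 * (K * r))
      = K * r + ⟪ω, h⟫ + ‖h‖ ^ 2 / (2 * (K * r)) := by
    field_simp
    ring
  rw [h3] at h2
  have h4 : ‖h‖ ^ 2 / (2 * (K * r)) ≤ r / (2 * K) := by
    have : ‖h‖ ^ 2 ≤ r ^ 2 := pow_le_pow_left₀ (norm_nonneg _) hh 2
    calc ‖h‖ ^ 2 / (2 * (K * r)) ≤ r ^ 2 / (2 * (K * r)) := by gcongr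
      _ = r / (2 * K) := by field_simp
  have h5 : ⟪ω, h⟫ ≤ r := by
    calc ⟪ω, h⟫ ≤ ‖ω‖ * ‖h‖ := real_inner_le_norm _ _
      _ ≤ r := by rw [hω1, one_mul]; exact hh
  have hΛ : 0 ≤ L + ε := by positivity
  have h6 : (L + ε) * ‖(K * r) • ω + h‖ ≤ (L + ε) * (K * r + ⟪ω, h⟫ + r / (2 * K)) :=
    mul_le_mul_of_nonneg_left (by linarith) hΛ
  have h7 : (L + ε) * (r / (2 * K)) ≤ η / 4 * r := by
    have : (L + ε) * (r / (2 * K)) = (L + ε) * r / (2 * K) := by ring
    rw [this, div_le_iff₀ (by positivity)]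
    nlinarith
  have h8 : ε * ⟪ω, h⟫ ≤ η / 8 * r := by
    have a1 : ε * ⟪ω, h⟫ ≤ ε * r := mul_le_mul_of_nonneg_left h5 hε0.le
    have a2 : ε ≤ η / 8 := by nlinarith
    nlinarith
  have h9 : ε * (K * r) ≤ η / 8 * r := by nlinarith
  nlinarith

/-- two-sided flatness at small scales (all blow-ups are linear, quantitatively) -/
lemma flat_two_sided [Nontrivial F] {u : F → ℝ} {Ω : Set F} (hΩ : IsOpen Ω)
    (hu : IsInfHarmonic u Ω) {x0 : F} (hx0 : x0 ∈ Ω) {η : ℝ} (hη : 0 < η) :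
    ∃ rs : ℝ, 0 < rs ∧ ∀ r : ℝ, 0 < r → r ≤ rs → ∃ ω : F, ‖ω‖ = 1 ∧
      ∀ h : F, ‖h‖ ≤ r → |u (x0 + h) - u x0 - Lp u Ω x0 * ⟪ω, h⟫| ≤ η * r := by
  have hLeq := Lp_neg_eq hΩ hu hx0
  set L := Lp u Ω x0 with hL
  have hL0 : 0 ≤ L := Lp_nonneg hΩ hu.1 hu.2.1 hx0
  obtain ⟨r1, hr1, h1⟩ := flat_upper hΩ hu hx0 (η := η / 3) (by positivity)
  obtain ⟨r2, hr2, h2⟩ := flat_upper hΩ hu.neg hx0 (η := η / 3) (by positivity)
  rw [hLeq] at h2
  rw [← hL] at h1
  refine ⟨min r1 r2, lt_min hr1 hr2, fun r hr hrs => ?_⟩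
  obtain ⟨ω, hω, hup⟩ := h1 r hr (hrs.trans (min_le_left _ _))
  obtain ⟨ω', hω', hdn⟩ := h2 r hr (hrs.trans (min_le_right _ _))
  refine ⟨ω, hω, fun h hh => ?_⟩
  -- `L ‖ω + ω'‖ ≤ 2 η / 3`
  have hsum : ∀ k : F, ‖k‖ ≤ r → -(L * ⟪ω + ω', k⟫) ≤ 2 * (η / 3) * r := by
    intro k hk
    have a1 := hup k hk
    have a2 := hdn k hk
    rw [inner_add_left]
    nlinarith
  have hkey : L * ⟪ω + ω', h⟫ ≤ 2 * (η / 3) * r := by
    have := hsum (-h) (by rwa [norm_neg])
    rw [inner_neg_right] at this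
    linarith
  have a1 := hup h hh
  have a2 := hdn h hh
  rw [inner_add_left] at hkey
  rw [abs_le]
  constructor
  · nlinarith
  · nlinarith

omit [FiniteDimensional ℝ F] in
/-- a touching ball at `x0` forces the flatness direction to be close to the touching direction -/
lemma touch_direction {u : F → ℝ} {x0 ν ω : F} {L η η' r r0 : ℝ} (hr : 0 < r)
    (hη' : 0 < η') (hη'1 : η' ≤ 1) (hLη : 3 * η < L * η') (hrr0 : 3 * r ≤ 2 * r0 * η')
    (hν : ‖ν‖ = 1) (hω : ‖ω‖ = 1)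
    (htouch : ∀ z ∈ closedBall (x0 + r0 • ν) r0, u x0 ≤ u z)
    (hflat : ∀ h : F, ‖h‖ ≤ r → u (x0 + h) ≤ u x0 + L * ⟪ω, h⟫ + η * r) :
    1 - η' < ⟪ν, ω⟫ := by
  by_contra hcon
  push Not at hcon
  set a : ℝ := ⟪ν, ω⟫ with ha
  have ha1 : |a| ≤ 1 := by
    have := abs_real_inner_le_norm ν ω
    rwa [hν, hω, mul_one] at this
  have ha2 := abs_le.mp ha1
  set k : F := ν - (a + η') • ω with hk
  set τ : ℝ := r / 3 with hτ
  have hτ0 : 0 < τ := by positivity
  have hνk : ⟪ν, k⟫ = 1 - (a + η') * a := by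
    rw [hk, inner_sub_right, inner_smul_right, real_inner_self_eq_norm_sq, hν]; ring
  have hωk : ⟪ω, k⟫ = -η' := by
    rw [hk, inner_sub_right, inner_smul_right, real_inner_self_eq_norm_sq, hω, real_inner_comm,
      ← ha]; ring
  have hkn : ‖k‖ ≤ 3 := by
    calc ‖k‖ ≤ ‖ν‖ + ‖(a + η') • ω‖ := norm_sub_le _ _
      _ = 1 + |a + η'| := by rw [hν, norm_smul, hω, mul_one, Real.norm_eq_abs]
      _ ≤ 3 := by
          have : |a + η'| ≤ |a| + |η'| := abs_add_le _ _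
          rw [abs_of_pos hη'] at this
          linarith
  have hge : η' ≤ ⟪ν, k⟫ := by
    rw [hνk]
    nlinarith [mul_nonneg (by linarith [ha2.1] : (0:ℝ) ≤ 1 + a) (by linarith : (0:ℝ) ≤ 1 - a - η')]
  have hr0 : 0 ≤ r0 := by
    by_contra hneg
    push Not at hneg
    nlinarith
  have hmem : x0 + τ • k ∈ closedBall (x0 + r0 • ν) r0 := by
    rw [mem_closedBall, dist_eq_norm]
    have e1 : x0 + τ • k - (x0 + r0 • ν) = τ • k - r0 • ν := by abel
    rw [e1]
    have e2 : ‖τ • k - r0 • ν‖ ^ 2 ≤ r0 ^ 2 := by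
      rw [norm_sub_sq_real, norm_smul, norm_smul, hν, inner_smul_left, inner_smul_right,
        Real.norm_eq_abs, Real.norm_eq_abs, abs_of_pos hτ0, abs_of_nonneg hr0, real_inner_comm]
      simp only [conj_trivial]
      have f1 : (τ * ‖k‖) ^ 2 ≤ (τ * 3) ^ 2 := by
        apply pow_le_pow_left₀ (by positivity)
        exact mul_le_mul_of_nonneg_left hkn hτ0.le
      have f2 : τ * (r0 * η') ≤ τ * (r0 * ⟪ν, k⟫) := by
        apply mul_le_mul_of_nonneg_left _ hτ0.le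
        exact mul_le_mul_of_nonneg_left hge hr0
      have f3 : 9 * τ ≤ 2 * r0 * η' := by rw [hτ]; linarith
      nlinarith
    exact (pow_le_pow_iff_left₀ (norm_nonneg _) hr0 (by norm_num)).mp e2
  have h1 := htouch _ hmem
  have hkr : ‖τ • k‖ ≤ r := by
    rw [norm_smul, Real.norm_eq_abs, abs_of_pos hτ0, hτ]
    nlinarith
  have h2 := hflat _ hkr
  rw [inner_smul_right, hωk] at h2
  have h3 : L * (τ * -η') + η * r < 0 := by
    rw [hτ]; nlinarith
  linarith

/-- An infinity-harmonic function is differentiable at every point touched by a closed ball on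
which `u ≥ u x0`; the gradient is `Lp u Ω x0 • ν`. -/
theorem hasGradientAt_of_touching [Nontrivial F] {u : F → ℝ} {Ω : Set F} (hΩ : IsOpen Ω)
    (hu : IsInfHarmonic u Ω) {x0 ν : F} (hx0 : x0 ∈ Ω) {r0 : ℝ} (hr0 : 0 < r0) (hν : ‖ν‖ = 1)
    (htouch : ∀ z ∈ closedBall (x0 + r0 • ν) r0, u x0 ≤ u z) :
    HasGradientAt u (Lp u Ω x0 • ν) x0 := by
  have hLeq := Lp_neg_eq hΩ hu hx0
  set L := Lp u Ω x0 with hL
  have hL0 : 0 ≤ L := Lp_nonneg hΩ hu.1 hu.2.1 hx0
  rw [hasGradientAt_iff_isLittleO, Asymptotics.isLittleO_iff]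
  intro c hc
  rcases eq_or_lt_of_le hL0 with hLz | hLpos
  · -- zero slope
    obtain ⟨r1, hr1, -, hup1⟩ := exists_upSlope_Lp hΩ hu.1 hu.2.1 hx0 hc
    obtain ⟨r2, hr2, -, hup2⟩ := exists_upSlope_Lp (u := fun x => -u x) hΩ hu.1.neg hu.2.2.neg hx0 hc
    rw [hLeq] at hup2
    rw [← hL] at hup1
    rw [← hLz] at hup1 hup2 ⊢
    filter_upwards [closedBall_mem_nhds x0 hr1, closedBall_mem_nhds x0 hr2] with x h1 h2
    have a1 := hup1 x h1
    have a2 := hup2 x h2
    simp only [zero_smul, inner_zero_left, sub_zero, zero_add] at a1 a2 ⊢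
    rw [Real.norm_eq_abs, abs_le]
    constructor <;> linarith
  · set η' : ℝ := min 1 (c ^ 2 / (8 * L ^ 2)) with hη'
    have hη'0 : 0 < η' := by rw [hη']; positivity
    have hη'1 : η' ≤ 1 := min_le_left _ _
    have hη'2 : L ^ 2 * (2 * η') ≤ (c / 2) ^ 2 := by
      have : η' ≤ c ^ 2 / (8 * L ^ 2) := min_le_right _ _
      rw [le_div_iff₀ (by positivity)] at this
      nlinarith
    set η : ℝ := min (c / 2) (L * η' / 4) with hη
    have hη0 : 0 < η := by rw [hη]; positivity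
    have hηc : η ≤ c / 2 := min_le_left _ _
    have hηL : 3 * η < L * η' := by
      have : η ≤ L * η' / 4 := min_le_right _ _
      have h2 : 0 < L * η' := by positivity
      linarith
    obtain ⟨rs, hrs, hflat⟩ := flat_two_sided hΩ hu hx0 hη0
    rw [← hL] at hflat
    set δ : ℝ := min rs (2 * r0 * η' / 3) with hδ
    have hδ0 : 0 < δ := by rw [hδ]; positivity
    filter_upwards [closedBall_mem_nhds x0 hδ0] with x hx
    rw [mem_closedBall, dist_eq_norm] at hx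
    rcases eq_or_lt_of_le (norm_nonneg (x - x0)) with hz | hpos
    · have : x = x0 := by
        rw [← sub_eq_zero, ← norm_eq_zero]; exact hz.symm
      rw [this]; simp
    set r := ‖x - x0‖ with hr
    obtain ⟨ω, hω, hfl⟩ := hflat r hpos (hx.trans (min_le_left _ _))
    have hdir := touch_direction (u := u) (x0 := x0) (L := L) (η := η) hpos hη'0 hη'1 hηL (by
      have : r ≤ 2 * r0 * η' / 3 := hx.trans (min_le_right _ _)
      linarith) hν hω htouch (fun h hh => by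
      have := (abs_le.mp (hfl h hh)).2
      linarith)
    have h1 := hfl (x - x0) le_rfl
    rw [add_sub_cancel] at h1
    have h2 : ‖ω - ν‖ ^ 2 ≤ 2 * η' := by
      rw [norm_sub_sq_real, hω, hν, real_inner_comm]; linarith
    have h3 : (L * ‖ω - ν‖) ^ 2 ≤ (c / 2) ^ 2 := by
      rw [mul_pow]
      exact (mul_le_mul_of_nonneg_left h2 (by positivity)).trans hη'2
    have h4 : L * ‖ω - ν‖ ≤ c / 2 :=
      (pow_le_pow_iff_left₀ (by positivity) (by positivity) (by norm_num)).mp h3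
    have h5 : |⟪ω - ν, x - x0⟫| ≤ ‖ω - ν‖ * r := abs_real_inner_le_norm _ _
    have h6 : L * ⟪ω, x - x0⟫ - ⟪L • ν, x - x0⟫ = L * ⟪ω - ν, x - x0⟫ := by
      rw [inner_sub_left, inner_smul_left]; simp only [conj_trivial]; ring
    have h7 : |L * ⟪ω - ν, x - x0⟫| ≤ c / 2 * r := by
      rw [abs_mul, abs_of_pos hLpos]
      calc L * |⟪ω - ν, x - x0⟫| ≤ L * (‖ω - ν‖ * r) := mul_le_mul_of_nonneg_left h5 hLpos.le
        _ = (L * ‖ω - ν‖) * r := by ring
        _ ≤ c / 2 * r := mul_le_mul_of_nonneg_right h4 hpos.le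
    have h8 : u x - u x0 - ⟪L • ν, x - x0⟫
        = (u x - u x0 - L * ⟪ω, x - x0⟫) + L * ⟪ω - ν, x - x0⟫ := by
      rw [← h6]; ring
    rw [h8, Real.norm_eq_abs]
    calc |(u x - u x0 - L * ⟪ω, x - x0⟫) + L * ⟪ω - ν, x - x0⟫|
        ≤ |u x - u x0 - L * ⟪ω, x - x0⟫| + |L * ⟪ω - ν, x - x0⟫| := abs_add_le _ _
      _ ≤ η * r + c / 2 * r := add_le_add h1 h7
      _ ≤ c * r := by nlinarith

/-- Locally quasiconvex or quasiconcave infinity-harmonic functions are differentiable everywhere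
(elementary proof, no appeal to the Evans-Smart theorem). -/
theorem differentiableAt_of_quasi [Nontrivial F] {u : F → ℝ} {Ω : Set F} (hΩ : IsOpen Ω)
    (hu : IsInfHarmonic u Ω) {x : F} (hx : x ∈ Ω) {ρ : ℝ} (hρ : 0 < ρ) (hball : ball x ρ ⊆ Ω)
    (hq : QuasiconvexOn ℝ (ball x ρ) u ∨ QuasiconcaveOn ℝ (ball x ρ) u) :
    DifferentiableAt ℝ u x := by
  rcases hq with hq | hq
  · obtain ⟨ν, hν, ht⟩ := touching_of_quasiconvex hρ (hu.1.mono hball) hq
      (mem_ball_self (by positivity : 0 < ρ / 4))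
    exact (hasGradientAt_of_touching hΩ hu hx (by positivity : 0 < ρ / 4) hν ht).differentiableAt
  · obtain ⟨ν, hν, ht⟩ := touching_of_quasiconvex (u := fun y => -u y) hρ (hu.1.mono hball).neg
      (quasiconvexOn_neg_of_quasiconcaveOn hq) (mem_ball_self (by positivity : 0 < ρ / 4))
    have h1 := (hasGradientAt_of_touching hΩ hu.neg hx (by positivity : 0 < ρ / 4) hν
      ht).differentiableAt
    have h2 := h1.neg
    simpa using h2

/-- Unconditional main theorem for locally quasiconvex / quasiconcave infinity-harmonic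
functions. -/
theorem quasi_main_unconditional {u : F → ℝ} {Ω : Set F} (hΩ : IsOpen Ω)
    (hu : IsInfHarmonic u Ω)
    (hq : ∀ x ∈ Ω, ∃ ρ : ℝ, 0 < ρ ∧ ball x ρ ⊆ Ω ∧
      (QuasiconvexOn ℝ (ball x ρ) u ∨ QuasiconcaveOn ℝ (ball x ρ) u)) :
    ContDiffOn ℝ 1 u Ω ∧
      (IsPreconnected Ω → (∀ x ∈ Ω, ∀ y ∈ Ω, u x = u y) ∨ ∀ x ∈ Ω, gradient u x ≠ 0) := by
  have hdiff : ∀ x ∈ Ω, DifferentiableAt ℝ u x := by
    intro x hx
    rcases subsingleton_or_nontrivial F with hS | hN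
    · have : u = fun _ => u 0 := by
        funext y; rw [Subsingleton.elim y 0]
      rw [this]; exact differentiableAt_const _
    · obtain ⟨ρ, hρ, hball, hq'⟩ := hq x hx
      exact differentiableAt_of_quasi hΩ hu hx hρ hball hq'
  exact ⟨quasi_main hΩ hu hdiff hq, fun hconn => quasi_dichotomy hΩ hconn hu hdiff hq⟩

end Vale.Agent.P080
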