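import Vale.Agent.P080.Convex

/-! Infinity-harmonic functions with one-sided touching balls at level sets (in particular
quasiconvex or quasiconcave ones): continuity of the gradient. -/

namespace Vale.Agent.P080

open Filter Topology Metric Set

variable {F : Type*} [NormedAddCommGroup F] [InnerProductSpace ℝ F] [FiniteDimensional ℝ F]

open scoped RealInnerProductSpace

lemma IsInfSuperharmonic.neg {u : F → ℝ} {Ω : Set F} (h : IsInfSuperharmonic u Ω) :
    IsInfSubharmonic (fun x => -u x) Ω := by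
  intro φ z hz hφ hmax
  have h1 : IsLocalMin (fun x => u x - (-φ x)) z := by
    have := hmax.neg
    refine this.congr ?_
    filter_upwards with x
    ring
  have h2 := h (fun x => -φ x) z hz hφ.neg h1
  rw [infLaplacian_fun_neg] at h2
  linarith

lemma IsInfHarmonic.neg {u : F → ℝ} {Ω : Set F} (h : IsInfHarmonic u Ω) :
    IsInfHarmonic (fun x => -u x) Ω :=
  ⟨h.1.neg, h.2.2.neg, h.2.1.neg⟩

lemma IsInfHarmonic.mono {u : F → ℝ} {Ω Ω' : Set F} (h : IsInfHarmonic u Ω) (hs : Ω' ⊆ Ω) :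
    IsInfHarmonic u Ω' :=
  ⟨h.1.mono hs, fun φ z hz => h.2.1 φ z (hs hz), fun φ z hz => h.2.2 φ z (hs hz)⟩

/-- Comparison with cones from above for viscosity subsolutions. -/
lemma cone_comparison_above {u : F → ℝ} {Ω : Set F} (hcont : ContinuousOn u Ω)
    (hsub : IsInfSubharmonic u Ω) {x0 : F} {r s : ℝ} (hr : 0 < r)
    (hball : closedBall x0 r ⊆ Ω) (hbd : ∀ y ∈ sphere x0 r, u y ≤ u x0 + s * r) :
    ∀ x ∈ closedBall x0 r, u x ≤ u x0 + s * ‖x - x0‖ := by
  intro x hx
  have := cone_comparison_below (u := fun x => -u x) hcont.neg hsub.neg (s := s) hr hball (by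
    intro y hy
    have := hbd y hy
    linarith) x hx
  linarith

omit [FiniteDimensional ℝ F] [InnerProductSpace ℝ F] [NormedAddCommGroup F] in
/-- one-sided first derivative test -/
lemma deriv_nonpos_of_right_max {g : ℝ → ℝ} {g' : ℝ} (hg : HasDerivAt g g' 0)
    (h : ∀ᶠ t in 𝓝[>] (0:ℝ), g t ≤ g 0) : g' ≤ 0 := by
  have h1 := hg.tendsto_slope_zero_right
  refine le_of_tendsto h1 ?_
  filter_upwards [h, self_mem_nhdsWithin] with t ht ht0
  have ht0' : (0:ℝ) < t := ht0
  simp only [zero_add, smul_eq_mul]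
  have : g t - g 0 ≤ 0 := by linarith
  exact mul_nonpos_of_nonneg_of_nonpos (inv_nonneg.mpr ht0'.le) this

omit [FiniteDimensional ℝ F] in
lemma hasDerivAt_line [CompleteSpace F] {u : F → ℝ} {x p : F} (hp : HasGradientAt u p x) (v : F) :
    HasDerivAt (fun t : ℝ => u (x + t • v)) ⟪p, v⟫ 0 := by
  have hline : HasDerivAt (fun t : ℝ => x + t • v) v 0 := by
    simpa using ((hasDerivAt_id (0:ℝ)).smul_const v).const_add x
  have h1 : HasFDerivAt u (InnerProductSpace.toDual ℝ F p) (x + (0:ℝ) • v) := by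
    simpa using hp.hasFDerivAt
  have h2 : HasDerivAt (fun t : ℝ => u (x + t • v)) (InnerProductSpace.toDual ℝ F p v) 0 :=
    h1.comp_hasDerivAt 0 hline
  exact h2.congr_deriv (by simp)

/-- If `u` lies below a cone of slope `s ≥ 0` with vertex at `x` near `x`, then `‖∇u(x)‖ ≤ s`. -/
lemma norm_gradient_le_of_cone {u : F → ℝ} {x p : F} {s : ℝ} (hs : 0 ≤ s)
    (hp : HasGradientAt u p x) (h : ∀ᶠ z in 𝓝 x, u z ≤ u x + s * ‖z - x‖) : ‖p‖ ≤ s := by
  by_cases hp0 : p = 0
  · rw [hp0, norm_zero]; exact hs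
  have hpn : 0 < ‖p‖ := norm_pos_iff.mpr hp0
  have hd := hasDerivAt_line hp p
  have hg : HasDerivAt (fun t : ℝ => u (x + t • p) - s * ‖p‖ * t) (⟪p, p⟫ - s * ‖p‖) 0 := by
    have h2 : HasDerivAt (fun t : ℝ => u (x + t • p) - s * ‖p‖ * t) (⟪p, p⟫ - s * ‖p‖ * 1) 0 :=
      hd.sub ((hasDerivAt_id (0:ℝ)).const_mul (s * ‖p‖))
    exact h2.congr_deriv (by ring)
  have hcont : Tendsto (fun t : ℝ => x + t • p) (𝓝[>] 0) (𝓝 x) := by
    have : Tendsto (fun t : ℝ => x + t • p) (𝓝 0) (𝓝 (x + (0:ℝ) • p)) := by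
      apply Continuous.tendsto; fun_prop
    simp only [zero_smul, add_zero] at this
    exact this.mono_left nhdsWithin_le_nhds
  have h1 := deriv_nonpos_of_right_max hg (by
    filter_upwards [hcont.eventually h, self_mem_nhdsWithin] with t ht ht0
    have ht0' : (0:ℝ) < t := ht0
    simp only [add_sub_cancel_left, norm_smul, Real.norm_eq_abs, abs_of_pos ht0'] at ht
    simp only [zero_smul, add_zero, mul_zero, sub_zero]
    linarith)
  rw [real_inner_self_eq_norm_sq] at h1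
  have h2 : ‖p‖ * ‖p‖ ≤ ‖p‖ * s := by nlinarith
  exact le_of_mul_le_mul_left h2 hpn

/-- The key one-sided inequality: if `u ≥ u x` on a closed ball of radius `r` touching `x`, with
centre `x + r ν`, then the derivative of `u` at `x` in the direction `ν` is at least the difference
quotient `(u (x + r ν) - u x) / r`. -/
lemma inner_gradient_ge_of_touching_ball {u : F → ℝ} {Ω : Set F} (hcont : ContinuousOn u Ω)
    (hsup : IsInfSuperharmonic u Ω) {x ν p : F} {r : ℝ} (hr : 0 < r) (hν : ‖ν‖ = 1)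
    (hball : closedBall (x + r • ν) r ⊆ Ω) (htouch : ∀ z ∈ closedBall (x + r • ν) r, u x ≤ u z)
    (hp : HasGradientAt u p x) : (u (x + r • ν) - u x) / r ≤ ⟪p, ν⟫ := by
  set s : ℝ := (u (x + r • ν) - u x) / r with hs
  have hsr : s * r = u (x + r • ν) - u x := by rw [hs]; field_simp
  have hcone := cone_comparison_below hcont hsup (s := s) hr hball (by
    intro y hy
    have := htouch y (sphere_subset_closedBall hy)
    linarith)
  have hd := hasDerivAt_line hp ν
  have hg : HasDerivAt (fun t : ℝ => s * t - u (x + t • ν)) (s - ⟪p, ν⟫) 0 := by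
    have h2 : HasDerivAt (fun t : ℝ => s * t - u (x + t • ν)) (s * 1 - ⟪p, ν⟫) 0 :=
      ((hasDerivAt_id (0:ℝ)).const_mul s).sub hd
    exact h2.congr_deriv (by ring)
  have h1 := deriv_nonpos_of_right_max hg (by
    have hIoo : Ioo (0:ℝ) r ∈ 𝓝[>] (0:ℝ) := Ioo_mem_nhdsGT hr
    filter_upwards [hIoo] with t ht
    have e1 : x + t • ν - (x + r • ν) = (t - r) • ν := by
      rw [sub_smul]; abel
    have e2 : ‖x + t • ν - (x + r • ν)‖ = r - t := by
      rw [e1, norm_smul, hν, mul_one, Real.norm_eq_abs, abs_of_neg (by linarith [ht.2])]; ring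
    have hmem : x + t • ν ∈ closedBall (x + r • ν) r := by
      rw [mem_closedBall, dist_eq_norm, e2]; linarith [ht.1]
    have := hcone _ hmem
    rw [e2] at this
    simp only [zero_smul, add_zero, mul_zero, zero_sub]
    nlinarith)
  linarith

lemma exists_expansion {u : F → ℝ} {x0 p0 : F} (hp : HasGradientAt u p0 x0) {ε : ℝ} (hε : 0 < ε) :
    ∃ ρ : ℝ, 0 < ρ ∧ ∀ y, ‖y - x0‖ ≤ ρ → |u y - u x0 - ⟪p0, y - x0⟫| ≤ ε * ‖y - x0‖ := by
  rw [hasGradientAt_iff_isLittleO] at hp
  have h1 := (Asymptotics.isLittleO_iff.mp hp) hε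
  obtain ⟨ρ, hρ, hb⟩ := Metric.eventually_nhds_iff_ball.mp h1
  refine ⟨ρ / 2, by positivity, fun y hy => ?_⟩
  have := hb y (by rw [mem_ball, dist_eq_norm]; linarith)
  simpa using this

/-- upper semicontinuity estimate for the norm of the gradient -/
lemma usc_estimate {u : F → ℝ} {Ω : Set F} (hcont : ContinuousOn u Ω)
    (hsub : IsInfSubharmonic u Ω) {x0 p0 x p : F} {ε ρ r : ℝ} (hε : 0 ≤ ε) (hr : 0 < r)
    (hρ : 2 * r ≤ ρ) (hΩ : closedBall x0 ρ ⊆ Ω)
    (hE : ∀ y, ‖y - x0‖ ≤ ρ → |u y - u x0 - ⟪p0, y - x0⟫| ≤ ε * ‖y - x0‖)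
    (hx : ‖x - x0‖ ≤ r) (hp : HasGradientAt u p x) : ‖p‖ ≤ ‖p0‖ + 3 * ε := by
  have hsubball : closedBall x r ⊆ closedBall x0 ρ := by
    apply closedBall_subset_closedBall'
    rw [dist_eq_norm]; linarith
  have hcone := cone_comparison_above hcont hsub (s := ‖p0‖ + 3 * ε) hr (hsubball.trans hΩ) (by
    intro y hy
    have hyr : ‖y - x‖ = r := by simpa [dist_eq_norm] using hy
    have hy0 : ‖y - x0‖ ≤ 2 * r := by
      calc ‖y - x0‖ = ‖(y - x) + (x - x0)‖ := by congr 1; abel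
        _ ≤ ‖y - x‖ + ‖x - x0‖ := norm_add_le _ _
        _ ≤ 2 * r := by linarith
    have e1 := abs_le.mp (hE y (by linarith))
    have e2 := abs_le.mp (hE x (by linarith))
    have e3 : ⟪p0, y - x0⟫ - ⟪p0, x - x0⟫ = ⟪p0, y - x⟫ := by
      rw [← inner_sub_right]; congr 1; abel
    have e4 : ⟪p0, y - x⟫ ≤ ‖p0‖ * r := by
      rw [← hyr]; exact real_inner_le_norm _ _
    have e5 : ε * ‖y - x0‖ ≤ ε * (2 * r) := mul_le_mul_of_nonneg_left hy0 hε
    have e6 : ε * ‖x - x0‖ ≤ ε * r := mul_le_mul_of_nonneg_left hx hε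
    nlinarith [e1.2, e2.1])
  apply norm_gradient_le_of_cone (by positivity) hp
  filter_upwards [closedBall_mem_nhds x hr] with z hz
  exact hcone z hz

omit [FiniteDimensional ℝ F] in
lemma touching_ball_shrink {x ν : F} {r r0 : ℝ} (hν : ‖ν‖ = 1) (hr : r ≤ r0) :
    closedBall (x + r • ν) r ⊆ closedBall (x + r0 • ν) r0 := by
  apply closedBall_subset_closedBall'
  rw [dist_eq_norm]
  have : x + r • ν - (x + r0 • ν) = (r - r0) • ν := by rw [sub_smul]; abel
  rw [this, norm_smul, hν, mul_one, Real.norm_eq_abs, abs_of_nonpos (by linarith)]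
  linarith

omit [FiniteDimensional ℝ F] in
/-- direction estimate: the touching direction at nearby points is close to the direction of the
gradient at `x0`. -/
lemma direction_estimate {u : F → ℝ} {x0 e0 x ν : F} {L η ρ τ r0 : ℝ} (hL : 0 < L) (hη : 0 < η)
    (he0 : ‖e0‖ = 1) (hτ : 0 < τ) (hτρ : 4 * τ ≤ ρ) (hτr : 9 * τ ≤ 2 * r0 * η) (hη1 : η ≤ 1)
    (hE : ∀ y, ‖y - x0‖ ≤ ρ → |u y - u x0 - ⟪L • e0, y - x0⟫| ≤ (L * η / 12) * ‖y - x0‖)
    (hx : ‖x - x0‖ ≤ τ) (hν : ‖ν‖ = 1)
    (htouch : ∀ z ∈ closedBall (x + r0 • ν) r0, u x ≤ u z) : 1 - η < ⟪ν, e0⟫ := by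
  by_contra hcon
  push Not at hcon
  set a : ℝ := ⟪ν, e0⟫ with ha
  have ha1 : |a| ≤ 1 := by
    have := abs_real_inner_le_norm ν e0
    rwa [hν, he0, mul_one] at this
  have ha2 := abs_le.mp ha1
  set h : F := ν - (a + η) • e0 with hh
  have hνh : ⟪ν, h⟫ = 1 - (a + η) * a := by
    rw [hh, inner_sub_right, inner_smul_right, real_inner_self_eq_norm_sq, hν]; ring
  have heh : ⟪e0, h⟫ = -η := by
    rw [hh, inner_sub_right, inner_smul_right, real_inner_self_eq_norm_sq, he0, real_inner_comm,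
      ← ha]; ring
  have hhn : ‖h‖ ≤ 3 := by
    calc ‖h‖ ≤ ‖ν‖ + ‖(a + η) • e0‖ := norm_sub_le _ _
      _ = 1 + |a + η| := by rw [hν, norm_smul, he0, mul_one, Real.norm_eq_abs]
      _ ≤ 3 := by
          have : |a + η| ≤ |a| + |η| := abs_add_le _ _
          rw [abs_of_pos hη] at this
          linarith
  have hge : η ≤ ⟪ν, h⟫ := by
    rw [hνh]
    nlinarith [mul_nonneg (by linarith [ha2.1] : (0:ℝ) ≤ 1 + a) (by linarith : (0:ℝ) ≤ 1 - a - η)]
  have hmem : x + τ • h ∈ closedBall (x + r0 • ν) r0 := by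
    have hr0 : 0 ≤ r0 := by
      by_contra hneg
      push Not at hneg
      nlinarith
    rw [mem_closedBall, dist_eq_norm]
    have e1 : x + τ • h - (x + r0 • ν) = τ • h - r0 • ν := by abel
    rw [e1]
    have e2 : ‖τ • h - r0 • ν‖ ^ 2 ≤ r0 ^ 2 := by
      rw [norm_sub_sq_real, norm_smul, norm_smul, hν, inner_smul_left, inner_smul_right,
        Real.norm_eq_abs, Real.norm_eq_abs, abs_of_pos hτ, abs_of_nonneg hr0, real_inner_comm]
      simp only [conj_trivial]
      have f1 : (τ * ‖h‖) ^ 2 ≤ (τ * 3) ^ 2 := by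
        apply pow_le_pow_left₀ (by positivity)
        exact mul_le_mul_of_nonneg_left hhn hτ.le
      have f2 : τ * (r0 * η) ≤ τ * (r0 * ⟪ν, h⟫) := by
        apply mul_le_mul_of_nonneg_left _ hτ.le
        exact mul_le_mul_of_nonneg_left hge hr0
      nlinarith
    exact (pow_le_pow_iff_left₀ (norm_nonneg _) hr0 (by norm_num)).mp e2
  have h1 := htouch _ hmem
  have hz0 : ‖x + τ • h - x0‖ ≤ 4 * τ := by
    calc ‖x + τ • h - x0‖ = ‖(x - x0) + τ • h‖ := by congr 1; abel
      _ ≤ ‖x - x0‖ + ‖τ • h‖ := norm_add_le _ _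
      _ = ‖x - x0‖ + τ * ‖h‖ := by rw [norm_smul, Real.norm_eq_abs, abs_of_pos hτ]
      _ ≤ τ + τ * 3 := add_le_add hx (mul_le_mul_of_nonneg_left hhn hτ.le)
      _ = 4 * τ := by ring
  have e1 := abs_le.mp (hE _ (hz0.trans hτρ))
  have e2 := abs_le.mp (hE x (by linarith))
  have e3 : ⟪L • e0, x + τ • h - x0⟫ - ⟪L • e0, x - x0⟫ = -(L * η * τ) := by
    rw [← inner_sub_right]
    have : x + τ • h - x0 - (x - x0) = τ • h := by abel
    rw [this, inner_smul_left, inner_smul_right, heh]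
    simp only [conj_trivial]; ring
  have hc : 0 ≤ L * η / 12 := by positivity
  have e5 : L * η / 12 * ‖x + τ • h - x0‖ ≤ L * η / 12 * (4 * τ) := mul_le_mul_of_nonneg_left hz0 hc
  have e6 : L * η / 12 * ‖x - x0‖ ≤ L * η / 12 * τ := mul_le_mul_of_nonneg_left hx hc
  have hpos : 0 < L * η * τ := by positivity
  nlinarith [e1.2, e2.1]

omit [FiniteDimensional ℝ F] in
/-- lower bound for the difference quotient in a direction `ν` -/
lemma quotient_lower {u : F → ℝ} {x0 p0 x ν : F} {ε ρ r : ℝ} (hε : 0 ≤ ε) (hr : 0 < r)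
    (hρ : 2 * r ≤ ρ)
    (hE : ∀ y, ‖y - x0‖ ≤ ρ → |u y - u x0 - ⟪p0, y - x0⟫| ≤ ε * ‖y - x0‖)
    (hx : ‖x - x0‖ ≤ r) (hν : ‖ν‖ = 1) : ⟪p0, ν⟫ - 3 * ε ≤ (u (x + r • ν) - u x) / r := by
  have hy0 : ‖x + r • ν - x0‖ ≤ 2 * r := by
    calc ‖x + r • ν - x0‖ = ‖(x - x0) + r • ν‖ := by congr 1; abel
      _ ≤ ‖x - x0‖ + ‖r • ν‖ := norm_add_le _ _
      _ = ‖x - x0‖ + r := by rw [norm_smul, hν, mul_one, Real.norm_eq_abs, abs_of_pos hr]
      _ ≤ 2 * r := by linarith
  have e1 := abs_le.mp (hE _ (hy0.trans hρ))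
  have e2 := abs_le.mp (hE x (by linarith))
  have e3 : ⟪p0, x + r • ν - x0⟫ - ⟪p0, x - x0⟫ = r * ⟪p0, ν⟫ := by
    rw [← inner_sub_right]
    have : x + r • ν - x0 - (x - x0) = r • ν := by abel
    rw [this, inner_smul_right]
  have e5 : ε * ‖x + r • ν - x0‖ ≤ ε * (2 * r) := mul_le_mul_of_nonneg_left hy0 hε
  have e6 : ε * ‖x - x0‖ ≤ ε * r := mul_le_mul_of_nonneg_left hx hε
  rw [le_div_iff₀ hr]
  nlinarith [e1.1, e2.2]

omit [FiniteDimensional ℝ F] in
/-- pure inequality: the three estimates force `p` to be close to `L e0`. -/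
lemma close_of_estimates {p ν e0 : F} {L η : ℝ} (hL : 0 < L) (hη : 0 < η) (hη1 : η ≤ 1)
    (hν : ‖ν‖ = 1) (he0 : ‖e0‖ = 1) (ha : 1 - η < ⟪ν, e0⟫) (hP : ‖p‖ ≤ L + 3 * (L * η / 12))
    (hb : L * ⟪ν, e0⟫ - 3 * (L * η / 12) ≤ ⟪p, ν⟫) : ‖p - L • e0‖ ^ 2 ≤ 12 * L ^ 2 * η := by
  set a := ⟪ν, e0⟫ with hadef
  set b := ⟪p, ν⟫ with hbdef
  have h1 : ‖p - L • ν‖ ^ 2 = ‖p‖ ^ 2 - 2 * L * b + L ^ 2 := by
    rw [norm_sub_sq_real, inner_smul_right, norm_smul, hν, Real.norm_eq_abs, abs_of_pos hL]; ring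
  have h2 : ‖L • ν - L • e0‖ ^ 2 = L ^ 2 * (2 - 2 * a) := by
    rw [← smul_sub, norm_smul, Real.norm_eq_abs, abs_of_pos hL, mul_pow, norm_sub_sq_real, hν, he0]
    ring
  have h3 : ‖p‖ ^ 2 ≤ (L + 3 * (L * η / 12)) ^ 2 := pow_le_pow_left₀ (norm_nonneg _) hP 2
  have hLL : 0 < L ^ 2 := by positivity
  have h4 : ‖p - L • ν‖ ^ 2 ≤ 4 * L ^ 2 * η := by
    rw [h1]
    have hb' : L * (1 - η) - 3 * (L * η / 12) ≤ b := by nlinarith
    have hLb : L * (L * (1 - η) - 3 * (L * η / 12)) ≤ L * b := mul_le_mul_of_nonneg_left hb' hL.le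
    have hηη : η ^ 2 ≤ η := by nlinarith
    have : L ^ 2 * η ^ 2 ≤ L ^ 2 * η := mul_le_mul_of_nonneg_left hηη hLL.le
    nlinarith
  have h5 : ‖L • ν - L • e0‖ ^ 2 ≤ 2 * L ^ 2 * η := by
    rw [h2]; nlinarith
  have h6 : ‖p - L • e0‖ ≤ ‖p - L • ν‖ + ‖L • ν - L • e0‖ := by
    have : p - L • e0 = (p - L • ν) + (L • ν - L • e0) := by abel
    rw [this]; exact norm_add_le _ _
  have h7 : ‖p - L • e0‖ ^ 2 ≤ (‖p - L • ν‖ + ‖L • ν - L • e0‖) ^ 2 :=
    pow_le_pow_left₀ (norm_nonneg _) h6 2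
  nlinarith [sq_nonneg (‖p - L • ν‖ - ‖L • ν - L • e0‖)]

/-- Core theorem: if near `x0` every point `x` is touched by a closed ball of a fixed radius on which
`u ≥ u x`, then the gradient of the (everywhere differentiable) infinity-harmonic function `u` is
continuous at `x0`. -/
theorem continuousAt_gradient_of_touching {u : F → ℝ} {Ω : Set F} (hΩ : IsOpen Ω)
    (hu : IsInfHarmonic u Ω) (hdiff : ∀ x ∈ Ω, DifferentiableAt ℝ u x) {x0 : F} (hx0 : x0 ∈ Ω)
    {r0 : ℝ} (hr0 : 0 < r0)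
    (hH : ∀ᶠ x in 𝓝 x0, ∃ ν : F, ‖ν‖ = 1 ∧ ∀ z ∈ closedBall (x + r0 • ν) r0, u x ≤ u z) :
    ContinuousAt (gradient u) x0 := by
  obtain ⟨hcont, hsub, hsup⟩ := hu
  set p0 := gradient u x0 with hp0def
  have hp0 : HasGradientAt u p0 x0 := (hdiff x0 hx0).hasGradientAt
  obtain ⟨R, hR, hRΩ⟩ : ∃ R : ℝ, 0 < R ∧ closedBall x0 R ⊆ Ω := by
    obtain ⟨ε, hε, hsubs⟩ := Metric.isOpen_iff.mp hΩ x0 hx0
    exact ⟨ε / 2, by positivity, (closedBall_subset_ball (by linarith)).trans hsubs⟩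
  rw [Metric.continuousAt_iff]
  intro ε hε
  by_cases hz : p0 = 0
  · obtain ⟨ρ', hρ', hE'⟩ := exists_expansion hp0 (ε := ε / 6) (by positivity)
    set ρ := min ρ' R with hρdef
    have hρ : 0 < ρ := lt_min hρ' hR
    have hE : ∀ y, ‖y - x0‖ ≤ ρ → |u y - u x0 - ⟪p0, y - x0⟫| ≤ ε / 6 * ‖y - x0‖ :=
      fun y hy => hE' y (hy.trans (min_le_left _ _))
    have hρΩ : closedBall x0 ρ ⊆ Ω := (closedBall_subset_closedBall (min_le_right _ _)).trans hRΩ
    refine ⟨ρ / 2, by positivity, fun x hx => ?_⟩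
    rw [dist_eq_norm] at hx
    have hxΩ : x ∈ Ω := hρΩ (by rw [mem_closedBall, dist_eq_norm]; linarith)
    have := usc_estimate hcont hsub (r := ρ / 2) (by positivity) (by positivity) (by linarith) hρΩ hE
      hx.le (hdiff x hxΩ).hasGradientAt
    rw [dist_eq_norm, ← hp0def, hz, sub_zero]
    rw [hz, norm_zero] at this
    linarith
  · set L := ‖p0‖ with hLdef
    have hL : 0 < L := norm_pos_iff.mpr hz
    set e0 : F := (1 / L) • p0 with he0def
    have he0 : ‖e0‖ = 1 := by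
      rw [he0def, norm_smul, Real.norm_eq_abs, abs_of_pos (by positivity), ← hLdef]; field_simp
    have hpe : p0 = L • e0 := by
      rw [he0def, smul_smul]; field_simp; simp
    set η : ℝ := min 1 (ε ^ 2 / (24 * L ^ 2)) with hηdef
    have hη : 0 < η := by rw [hηdef]; positivity
    have hη1 : η ≤ 1 := min_le_left _ _
    have hη2 : 12 * L ^ 2 * η < ε ^ 2 := by
      have : η ≤ ε ^ 2 / (24 * L ^ 2) := min_le_right _ _
      have h2 : 12 * L ^ 2 * η ≤ 12 * L ^ 2 * (ε ^ 2 / (24 * L ^ 2)) :=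
        mul_le_mul_of_nonneg_left this (by positivity)
      have h3 : 12 * L ^ 2 * (ε ^ 2 / (24 * L ^ 2)) = ε ^ 2 / 2 := by field_simp; ring
      have h4 : 0 < ε ^ 2 := by positivity
      linarith
    obtain ⟨ρ', hρ', hE'⟩ := exists_expansion hp0 (ε := L * η / 12) (by positivity)
    set ρ := min ρ' R with hρdef
    have hρ : 0 < ρ := lt_min hρ' hR
    have hE : ∀ y, ‖y - x0‖ ≤ ρ → |u y - u x0 - ⟪p0, y - x0⟫| ≤ L * η / 12 * ‖y - x0‖ :=
      fun y hy => hE' y (hy.trans (min_le_left _ _))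
    have hρΩ : closedBall x0 ρ ⊆ Ω := (closedBall_subset_closedBall (min_le_right _ _)).trans hRΩ
    set r := min r0 (ρ / 4) with hrdef
    have hr : 0 < r := lt_min hr0 (by positivity)
    have hrr0 : r ≤ r0 := min_le_left _ _
    have hrρ : r ≤ ρ / 4 := min_le_right _ _
    set τ := 2 * r * η / 9 with hτdef
    have hτ : 0 < τ := by rw [hτdef]; positivity
    have hτr : τ ≤ r := by
      rw [hτdef]; nlinarith
    obtain ⟨δH, hδH, hHb⟩ := Metric.eventually_nhds_iff_ball.mp hH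
    refine ⟨min τ δH, lt_min hτ hδH, fun x hx => ?_⟩
    have hxτ : ‖x - x0‖ ≤ τ := by
      rw [dist_eq_norm] at hx; exact (hx.trans_le (min_le_left _ _)).le
    obtain ⟨ν, hν, htouch⟩ := hHb x (by rw [mem_ball]; exact hx.trans_le (min_le_right _ _))
    have hxΩ : x ∈ Ω := hρΩ (by rw [mem_closedBall, dist_eq_norm]; linarith)
    have hp : HasGradientAt u (gradient u x) x := (hdiff x hxΩ).hasGradientAt
    have A := usc_estimate hcont hsub (r := r) (by positivity) hr (by linarith) hρΩ hE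
      (hxτ.trans hτr) hp
    have hE2 : ∀ y, ‖y - x0‖ ≤ ρ → |u y - u x0 - ⟪L • e0, y - x0⟫| ≤ L * η / 12 * ‖y - x0‖ := by
      rw [← hpe]; exact hE
    have B := direction_estimate hL hη he0 hτ (by linarith) (by
      rw [hτdef]
      have : 2 * r * η ≤ 2 * r0 * η := by gcongr
      linarith) hη1 hE2 hxτ hν htouch
    have hballΩ : closedBall (x + r • ν) r ⊆ Ω := by
      refine Subset.trans ?_ hρΩ
      apply closedBall_subset_closedBall'
      rw [dist_eq_norm]
      have : ‖x + r • ν - x0‖ ≤ τ + r := by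
        calc ‖x + r • ν - x0‖ = ‖(x - x0) + r • ν‖ := by congr 1; abel
          _ ≤ ‖x - x0‖ + ‖r • ν‖ := norm_add_le _ _
          _ = ‖x - x0‖ + r := by rw [norm_smul, hν, mul_one, Real.norm_eq_abs, abs_of_pos hr]
          _ ≤ τ + r := by linarith
      linarith
    have C1 := inner_gradient_ge_of_touching_ball hcont hsup hr hν hballΩ
      (fun z hz => htouch z (touching_ball_shrink hν hrr0 hz)) hp
    have C2 := quotient_lower (u := u) (ν := ν) (by positivity : (0:ℝ) ≤ L * η / 12) hr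
      (by linarith : 2 * r ≤ ρ) hE (hxτ.trans hτr) hν
    have C3 : ⟪p0, ν⟫ = L * ⟪ν, e0⟫ := by
      rw [hpe, inner_smul_left, real_inner_comm]; simp
    rw [C3] at C2
    have D := close_of_estimates hL hη hη1 hν he0 B A (C2.trans C1)
    rw [← hpe] at D
    rw [dist_eq_norm]
    have : ‖gradient u x - p0‖ ^ 2 < ε ^ 2 := D.trans_lt hη2
    exact lt_of_pow_lt_pow_left₀ 2 hε.le this

/-- Quasiconvexity on a ball gives touching balls of a uniform radius. -/
lemma touching_of_quasiconvex [Nontrivial F] {u : F → ℝ} {x0 : F} {ρ : ℝ} (hρ : 0 < ρ)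
    (hcont : ContinuousOn u (ball x0 ρ)) (hq : QuasiconvexOn ℝ (ball x0 ρ) u) {x : F}
    (hx : x ∈ ball x0 (ρ / 4)) :
    ∃ ν : F, ‖ν‖ = 1 ∧ ∀ z ∈ closedBall (x + (ρ / 4) • ν) (ρ / 4), u x ≤ u z := by
  have hxn : ‖x - x0‖ < ρ / 4 := by rwa [mem_ball, dist_eq_norm] at hx
  have hin : ∀ ν : F, ‖ν‖ = 1 → closedBall (x + (ρ / 4) • ν) (ρ / 4) ⊆ ball x0 ρ := by
    intro ν hν z hz
    rw [mem_closedBall, dist_eq_norm] at hz
    rw [mem_ball, dist_eq_norm]
    calc ‖z - x0‖ = ‖(z - (x + (ρ / 4) • ν)) + (ρ / 4) • ν + (x - x0)‖ := by congr 1; abel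
      _ ≤ ‖z - (x + (ρ / 4) • ν)‖ + ‖(ρ / 4) • ν‖ + ‖x - x0‖ := norm_add₃_le
      _ = ‖z - (x + (ρ / 4) • ν)‖ + ρ / 4 + ‖x - x0‖ := by
          rw [norm_smul, hν, mul_one, Real.norm_eq_abs, abs_of_pos (by positivity)]
      _ < ρ := by linarith
  set s : Set F := {a ∈ ball x0 ρ | u a < u x} with hs
  have hsconv : Convex ℝ s := hq.convex_lt (u x)
  have hsopen : IsOpen s := hcont.isOpen_inter_preimage isOpen_ball isOpen_Iio
  have hxs : x ∉ s := fun h => lt_irrefl _ h.2
  rcases s.eq_empty_or_nonempty with hE | ⟨a0, ha0⟩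
  · obtain ⟨ν, hν⟩ : (sphere (0 : F) 1).Nonempty := (NormedSpace.sphere_nonempty).mpr zero_le_one
    have hν1 : ‖ν‖ = 1 := by simpa using hν
    refine ⟨ν, hν1, fun z hz => ?_⟩
    by_contra hlt
    push Not at hlt
    have : z ∈ s := ⟨hin ν hν1 hz, hlt⟩
    rw [hE] at this
    exact this
  · obtain ⟨f, hf⟩ := geometric_hahn_banach_open_point hsconv hsopen hxs
    set w : F := (InnerProductSpace.toDual ℝ F).symm f with hw
    have hfw : ∀ y, f y = ⟪w, y⟫ := by
      intro y; rw [hw, InnerProductSpace.toDual_symm_apply]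
    have hw0 : w ≠ 0 := by
      intro h0
      have := hf a0 ha0
      rw [hfw, hfw, h0] at this
      simp at this
    have hwn : 0 < ‖w‖ := norm_pos_iff.mpr hw0
    set ν : F := (1 / ‖w‖) • w with hνdef
    have hν1 : ‖ν‖ = 1 := by
      rw [hνdef, norm_smul, Real.norm_eq_abs, abs_of_pos (by positivity)]; field_simp
    refine ⟨ν, hν1, fun z hz => ?_⟩
    by_contra hlt
    push Not at hlt
    have hzs : z ∈ s := ⟨hin ν hν1 hz, hlt⟩
    have h1 := hf z hzs
    rw [hfw, hfw] at h1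
    have h2 : ⟪ν, z - x⟫ < 0 := by
      rw [hνdef, inner_smul_left, inner_sub_right]
      simp only [conj_trivial]
      have : ⟪w, z⟫ - ⟪w, x⟫ < 0 := by linarith
      exact mul_neg_of_pos_of_neg (by positivity) this
    rw [mem_closedBall, dist_eq_norm] at hz
    have h3 : ⟪ν, z - x⟫ = ρ / 4 + ⟪ν, z - (x + (ρ / 4) • ν)⟫ := by
      have : z - x = (ρ / 4) • ν + (z - (x + (ρ / 4) • ν)) := by abel
      rw [this, inner_add_right, inner_smul_right, real_inner_self_eq_norm_sq, hν1]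
      simp
    have h4 : -(‖ν‖ * ‖z - (x + (ρ / 4) • ν)‖) ≤ ⟪ν, z - (x + (ρ / 4) • ν)⟫ :=
      neg_le_of_abs_le (abs_real_inner_le_norm _ _)
    rw [hν1, one_mul] at h4
    linarith

omit [FiniteDimensional ℝ F] in
lemma quasiconvexOn_neg_of_quasiconcaveOn {u : F → ℝ} {s : Set F} (h : QuasiconcaveOn ℝ s u) :
    QuasiconvexOn ℝ s (fun x => -u x) := by
  intro r
  have h1 := h (-r)
  have h2 : {x | x ∈ s ∧ (fun x => -u x) x ≤ r} = {x | x ∈ s ∧ -r ≤ u x} := by
    ext x
    simp only [Set.mem_ofPred_eq]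
    constructor
    · rintro ⟨a, b⟩; exact ⟨a, by linarith⟩
    · rintro ⟨a, b⟩; exact ⟨a, by linarith⟩
  rw [h2]; exact h1

/-- Continuity of the gradient at a point near which `u` is quasiconvex or quasiconcave. -/
theorem continuousAt_gradient_of_quasi [Nontrivial F] {u : F → ℝ} {Ω : Set F} (hΩ : IsOpen Ω)
    (hu : IsInfHarmonic u Ω) (hdiff : ∀ x ∈ Ω, DifferentiableAt ℝ u x) {x0 : F} (hx0 : x0 ∈ Ω)
    {ρ : ℝ} (hρ : 0 < ρ) (hball : ball x0 ρ ⊆ Ω)
    (hq : QuasiconvexOn ℝ (ball x0 ρ) u ∨ QuasiconcaveOn ℝ (ball x0 ρ) u) :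
    ContinuousAt (gradient u) x0 := by
  rcases hq with hq | hq
  · apply continuousAt_gradient_of_touching hΩ hu hdiff hx0 (r0 := ρ / 4) (by positivity)
    filter_upwards [ball_mem_nhds x0 (by positivity : 0 < ρ / 4)] with x hx
    exact touching_of_quasiconvex hρ (hu.1.mono hball) hq hx
  · have h1 : ContinuousAt (gradient (fun x => -u x)) x0 := by
      apply continuousAt_gradient_of_touching hΩ hu.neg (fun x hx => (hdiff x hx).neg) hx0
        (r0 := ρ / 4) (by positivity)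
      filter_upwards [ball_mem_nhds x0 (by positivity : 0 < ρ / 4)] with x hx
      exact touching_of_quasiconvex hρ (hu.1.mono hball).neg (quasiconvexOn_neg_of_quasiconcaveOn hq) hx
    have h2 : gradient u = fun x => -gradient (fun y => -u y) x := by
      funext x; rw [gradient_fun_neg, neg_neg]
    rw [h2]
    exact h1.neg

/-- `C^1` regularity from everywhere differentiability and continuity of the gradient. -/
lemma contDiffOn_one_of_continuous_gradient {u : F → ℝ} {Ω : Set F} (hΩ : IsOpen Ω)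
    (hdiff : ∀ x ∈ Ω, DifferentiableAt ℝ u x) (hc : ∀ x ∈ Ω, ContinuousAt (gradient u) x) :
    ContDiffOn ℝ 1 u Ω := by
  have hfc : ContinuousOn (fderiv ℝ u) Ω := by
    have : fderiv ℝ u = fun x => InnerProductSpace.toDual ℝ F (gradient u x) := by
      funext x; rw [toDual_gradient]
    rw [this]
    exact (InnerProductSpace.toDual ℝ F).continuous.comp_continuousOn
      (fun x hx => (hc x hx).continuousWithinAt)
  rw [show (1 : WithTop ℕ∞) = 0 + 1 by simp, contDiffOn_succ_iff_fderiv_of_isOpen hΩ]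
  exact ⟨fun x hx => (hdiff x hx).differentiableWithinAt, by simp, contDiffOn_zero.mpr hfc⟩

/-- Main theorem: locally quasiconvex or quasiconcave infinity-harmonic functions are `C^1`. -/
theorem quasi_main {u : F → ℝ} {Ω : Set F} (hΩ : IsOpen Ω)
    (hu : IsInfHarmonic u Ω) (hdiff : ∀ x ∈ Ω, DifferentiableAt ℝ u x)
    (hq : ∀ x ∈ Ω, ∃ ρ : ℝ, 0 < ρ ∧ ball x ρ ⊆ Ω ∧
      (QuasiconvexOn ℝ (ball x ρ) u ∨ QuasiconcaveOn ℝ (ball x ρ) u)) :
    ContDiffOn ℝ 1 u Ω := by
  rcases subsingleton_or_nontrivial F with hS | hN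
  · have : u = fun _ => u 0 := by
      funext x; rw [Subsingleton.elim x 0]
    rw [this]; exact contDiffOn_const
  · apply contDiffOn_one_of_continuous_gradient hΩ hdiff
    intro x hx
    obtain ⟨ρ, hρ, hball, hq'⟩ := hq x hx
    exact continuousAt_gradient_of_quasi hΩ hu hdiff hx hρ hball hq'

/-- Strong maximum principle (local form) for subsolutions. -/
lemma const_of_max_on_ball {u : F → ℝ} {Ω : Set F} (hcont : ContinuousOn u Ω)
    (hsub : IsInfSubharmonic u Ω) {x : F} {r : ℝ} (hr : 0 < r) (hball : closedBall x r ⊆ Ω)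
    (hmax : ∀ z ∈ closedBall x r, u z ≤ u x) : ∀ y ∈ ball x (r / 2), u y = u x := by
  intro y hy
  have hyn : ‖x - y‖ < r / 2 := by rwa [mem_ball, dist_eq_norm, norm_sub_rev] at hy
  have hsubball : closedBall y (r / 2) ⊆ closedBall x r := by
    apply closedBall_subset_closedBall'
    rw [dist_eq_norm, norm_sub_rev]; linarith
  have hyx : u y ≤ u x := hmax y (hsubball (mem_closedBall_self (by positivity)))
  have hcone := cone_comparison_above hcont hsub (x0 := y) (r := r / 2)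
    (s := (u x - u y) / (r / 2)) (by positivity) (hsubball.trans hball) (by
    intro w hw
    have h1 := hmax w (hsubball (sphere_subset_closedBall hw))
    have h2 : (u x - u y) / (r / 2) * (r / 2) = u x - u y := by field_simp
    linarith)
  have h3 := hcone x (by rw [mem_closedBall, dist_eq_norm]; exact hyn.le)
  apply le_antisymm hyx
  by_contra hlt
  push Not at hlt
  have hpos : 0 < u x - u y := by linarith
  have h4 : (u x - u y) / (r / 2) * ‖x - y‖ < (u x - u y) / (r / 2) * (r / 2) := by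
    apply mul_lt_mul_of_pos_left hyn
    positivity
  have h5 : (u x - u y) / (r / 2) * (r / 2) = u x - u y := by field_simp
  linarith

/-- Strong minimum principle (local form) for supersolutions. -/
lemma const_of_min_on_ball {u : F → ℝ} {Ω : Set F} (hcont : ContinuousOn u Ω)
    (hsup : IsInfSuperharmonic u Ω) {x : F} {r : ℝ} (hr : 0 < r) (hball : closedBall x r ⊆ Ω)
    (hmin : ∀ z ∈ closedBall x r, u x ≤ u z) : ∀ y ∈ ball x (r / 2), u y = u x := by
  intro y hy
  have := const_of_max_on_ball (u := fun x => -u x) hcont.neg hsup.neg hr hball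
    (fun z hz => by have := hmin z hz; linarith) y hy
  linarith

/-- At a critical point of a quasiconvex infinity-harmonic function, the function is locally
constant. -/
lemma locally_const_of_critical_quasiconvex {u : F → ℝ} {Ω : Set F}
    (hu : IsInfHarmonic u Ω) {z : F} {ρ : ℝ} (hρ : 0 < ρ) (hball : ball z ρ ⊆ Ω)
    (hq : QuasiconvexOn ℝ (ball z ρ) u) (hp : HasGradientAt u 0 z) :
    ∃ r : ℝ, 0 < r ∧ ∀ w ∈ ball z r, u w = u z := by
  obtain ⟨hcont, hsub, hsup⟩ := hu
  set K : Set F := {a ∈ ball z ρ | u a ≤ u z} with hK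
  have hKconv : Convex ℝ K := hq (u z)
  have hzint : z ∈ interior K := by
    by_contra hzn
    by_cases hne : (interior K).Nonempty
    · obtain ⟨f, hf0, hf⟩ := geometric_hahn_banach_of_nonempty_interior_point hKconv hzn hne
      set w : F := (InnerProductSpace.toDual ℝ F).symm f with hw
      have hfw : ∀ y, f y = ⟪w, y⟫ := by
        intro y; rw [hw, InnerProductSpace.toDual_symm_apply]
      have hw0 : w ≠ 0 := by
        intro h0
        apply hf0
        ext y
        rw [hfw, h0]; simp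
      have hwn : 0 < ‖w‖ := norm_pos_iff.mpr hw0
      set ν : F := (1 / ‖w‖) • w with hνdef
      have hν1 : ‖ν‖ = 1 := by
        rw [hνdef, norm_smul, Real.norm_eq_abs, abs_of_pos (by positivity)]; field_simp
      have hνK : ∀ a ∈ K, ⟪ν, a - z⟫ ≤ 0 := by
        intro a ha
        have h1 := hf a ha
        rw [hfw, hfw] at h1
        rw [hνdef, inner_smul_left, inner_sub_right]
        simp only [conj_trivial]
        exact mul_nonpos_of_nonneg_of_nonpos (by positivity) (by linarith)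
      set r : ℝ := ρ / 4 with hr
      have hrpos : 0 < r := by positivity
      have hin : closedBall (z + r • ν) r ⊆ ball z ρ := by
        intro y hy
        rw [mem_closedBall, dist_eq_norm] at hy
        rw [mem_ball, dist_eq_norm]
        calc ‖y - z‖ = ‖(y - (z + r • ν)) + r • ν‖ := by congr 1; abel
          _ ≤ ‖y - (z + r • ν)‖ + ‖r • ν‖ := norm_add_le _ _
          _ = ‖y - (z + r • ν)‖ + r := by
              rw [norm_smul, hν1, mul_one, Real.norm_eq_abs, abs_of_pos hrpos]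
          _ < ρ := by rw [hr] at hy ⊢; linarith
      have htouch : ∀ y ∈ closedBall (z + r • ν) r, u z ≤ u y := by
        intro y hy
        by_contra hlt
        push Not at hlt
        have hyK : y ∈ K := ⟨hin hy, hlt.le⟩
        have h1 := hνK y hyK
        rw [mem_closedBall, dist_eq_norm] at hy
        have h2 : ‖y - (z + r • ν)‖ ^ 2 ≤ r ^ 2 := pow_le_pow_left₀ (norm_nonneg _) hy 2
        have h3 : y - (z + r • ν) = (y - z) - r • ν := by abel
        rw [h3, norm_sub_sq_real, inner_smul_right, norm_smul, hν1, mul_one, Real.norm_eq_abs,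
          abs_of_pos hrpos, real_inner_comm] at h2
        have h4 : ‖y - z‖ ^ 2 ≤ 0 := by nlinarith
        have h5 : ‖y - z‖ = 0 := by
          have := sq_nonneg ‖y - z‖
          exact pow_eq_zero_iff (n := 2) (by norm_num) |>.mp (le_antisymm h4 this)
        have h6 : y = z := by rwa [norm_eq_zero, sub_eq_zero] at h5
        rw [h6] at hlt
        exact lt_irrefl _ hlt
      have h1 := inner_gradient_ge_of_touching_ball hcont hsup hrpos hν1 (hin.trans hball) htouch hp
      rw [inner_zero_left, div_le_iff₀ hrpos, zero_mul] at h1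
      have hcK : z + r • ν ∈ K :=
        ⟨hin (mem_closedBall_self hrpos.le), by linarith⟩
      have h2 := hνK _ hcK
      rw [add_sub_cancel_left, inner_smul_right, real_inner_self_eq_norm_sq, hν1] at h2
      linarith
    · -- the strict sublevel set is empty, so `z` is a minimum point on the ball
      have hopen : IsOpen {a ∈ ball z ρ | u a < u z} :=
        (hcont.mono hball).isOpen_inter_preimage isOpen_ball isOpen_Iio
      have hsubK : {a ∈ ball z ρ | u a < u z} ⊆ interior K :=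
        interior_maximal (fun a ha => ⟨ha.1, ha.2.le⟩) hopen
      have hmin : ∀ a ∈ closedBall z (ρ / 2), u z ≤ u a := by
        intro a ha
        by_contra hlt
        push Not at hlt
        exact hne ⟨a, hsubK ⟨closedBall_subset_ball (by linarith) ha, hlt⟩⟩
      have hc := const_of_min_on_ball hcont hsup (by positivity : 0 < ρ / 2)
        ((closedBall_subset_ball (by linarith)).trans hball) hmin
      apply hne
      refine ⟨z, ?_⟩
      rw [mem_interior]
      refine ⟨ball z (ρ / 2 / 2), fun a ha => ⟨ball_subset_ball (by linarith) ha, (hc a ha).le⟩,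
        isOpen_ball, mem_ball_self (by positivity)⟩
  rw [mem_interior_iff_mem_nhds, Metric.mem_nhds_iff] at hzint
  obtain ⟨r, hr, hrK⟩ := hzint
  have hmax : ∀ a ∈ closedBall z (r / 2), u a ≤ u z := fun a ha =>
    (hrK (closedBall_subset_ball (by linarith) ha)).2
  have hsubΩ : closedBall z (r / 2) ⊆ Ω := fun a ha =>
    hball (hrK (closedBall_subset_ball (by linarith) ha)).1
  exact ⟨r / 2 / 2, by positivity, const_of_max_on_ball hcont hsub (by positivity) hsubΩ hmax⟩

lemma locally_const_of_critical {u : F → ℝ} {Ω : Set F}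
    (hu : IsInfHarmonic u Ω) {z : F} {ρ : ℝ} (hρ : 0 < ρ) (hball : ball z ρ ⊆ Ω)
    (hq : QuasiconvexOn ℝ (ball z ρ) u ∨ QuasiconcaveOn ℝ (ball z ρ) u)
    (hp : HasGradientAt u 0 z) :
    ∃ r : ℝ, 0 < r ∧ ∀ w ∈ ball z r, u w = u z := by
  rcases hq with hq | hq
  · exact locally_const_of_critical_quasiconvex hu hρ hball hq hp
  · have hp' : HasGradientAt (fun x => -u x) 0 z := by
      have h1 := hp.hasFDerivAt.neg
      rw [hasGradientAt_iff_hasFDerivAt]
      refine h1.congr_fderiv ?_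
      simp
    obtain ⟨r, hr, h⟩ := locally_const_of_critical_quasiconvex hu.neg hρ hball
      (quasiconvexOn_neg_of_quasiconcaveOn hq) hp'
    exact ⟨r, hr, fun w hw => by have := h w hw; linarith⟩

/-- Dichotomy: on a connected open set, a locally quasiconvex/quasiconcave infinity-harmonic
function is either constant or has nowhere vanishing gradient. -/
theorem quasi_dichotomy {u : F → ℝ} {Ω : Set F} (hΩ : IsOpen Ω) (hconn : IsPreconnected Ω)
    (hu : IsInfHarmonic u Ω) (hdiff : ∀ x ∈ Ω, DifferentiableAt ℝ u x)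
    (hq : ∀ x ∈ Ω, ∃ ρ : ℝ, 0 < ρ ∧ ball x ρ ⊆ Ω ∧
      (QuasiconvexOn ℝ (ball x ρ) u ∨ QuasiconcaveOn ℝ (ball x ρ) u)) :
    (∀ x ∈ Ω, ∀ y ∈ Ω, u x = u y) ∨ ∀ x ∈ Ω, gradient u x ≠ 0 := by
  rcases subsingleton_or_nontrivial F with hS | hN
  · left
    intro x _ y _
    rw [Subsingleton.elim x y]
  by_cases hall : ∀ x ∈ Ω, gradient u x ≠ 0
  · exact Or.inr hall
  left
  push Not at hall
  obtain ⟨x0, hx0, hg0⟩ := hall
  have hC : ContinuousOn (gradient u) Ω := by
    intro x hx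
    obtain ⟨ρ, hρ, hball, hq'⟩ := hq x hx
    exact (continuousAt_gradient_of_quasi hΩ hu hdiff hx hρ hball hq').continuousWithinAt
  set A : Set F := {x ∈ Ω | gradient u x = 0} with hA
  set B : Set F := {x ∈ Ω | gradient u x ≠ 0} with hB
  have hAopen : IsOpen A := by
    rw [Metric.isOpen_iff]
    intro z hz
    obtain ⟨ρ, hρ, hball, hq'⟩ := hq z hz.1
    have hp : HasGradientAt u 0 z := by
      have := (hdiff z hz.1).hasGradientAt
      rwa [hz.2] at this
    obtain ⟨r, hr, hconst⟩ := locally_const_of_critical hu hρ hball hq' hp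
    refine ⟨min r ρ, lt_min hr hρ, fun w hw => ⟨hball (ball_subset_ball (min_le_right _ _) hw), ?_⟩⟩
    have hw' : w ∈ ball z r := ball_subset_ball (min_le_left _ _) hw
    have hev : u =ᶠ[𝓝 w] fun _ => u z := by
      filter_upwards [isOpen_ball.mem_nhds hw'] with y hy
      exact hconst y hy
    rw [hev.gradient_eq, gradient_fun_const]
  have hBopen : IsOpen B := hC.isOpen_inter_preimage hΩ isOpen_compl_singleton
  have hcover : Ω ⊆ A ∪ B := by
    intro x hx
    by_cases h : gradient u x = 0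
    · exact Or.inl ⟨hx, h⟩
    · exact Or.inr ⟨hx, h⟩
  have hallzero : ∀ x ∈ Ω, gradient u x = 0 := by
    intro x hx
    by_contra hne
    obtain ⟨y, -, hyA, hyB⟩ := hconn A B hAopen hBopen hcover ⟨x0, hx0, hx0, hg0⟩ ⟨x, hx, hx, hne⟩
    exact hyB.2 hyA.2
  intro x hx y hy
  apply hΩ.is_const_of_fderiv_eq_zero (𝕜 := ℝ) hconn
    (fun z hz => (hdiff z hz).differentiableWithinAt) _ hx hy
  intro z hz
  rw [← toDual_gradient, hallzero z hz]
  simp

end Vale.Agent.P080
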